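import Mathlib

/-!
Definitions for the entanglement area-law problem on the square lattice.
A site configuration is a function from sites to `Fin q`; the Hilbert space of the
lattice is the space of complex functions on configurations, operators are matrices indexed by
configurations.
-/

open Matrix

namespace Vale.Agent.Lib.P356

/-- The box `{1,...,L}²`, coded as `Fin L × Fin L`. -/
abbrev Site (L : ℕ) : Type := Fin L × Fin L

/-- The `ℓ¹` distance on the box. -/
def l1 {L : ℕ} (x y : Site L) : ℕ := Nat.dist x.1 y.1 + Nat.dist x.2 y.2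

/-- `M` acts on the tensor factors in `X` and as the identity elsewhere: there is a matrix `m`
on configurations of `X` with `M σ τ = m (σ|X) (τ|X)` if `σ, τ` agree off `X`, and `0` otherwise. -/
def ActsOn {ι : Type} [Fintype ι] [DecidableEq ι] {q : ℕ} (X : Finset ι)
    (M : Matrix (ι → Fin q) (ι → Fin q) ℂ) : Prop :=
  ∃ m : Matrix (X → Fin q) (X → Fin q) ℂ, ∀ σ τ,
    M σ τ = if ∀ y, y ∉ X → σ y = τ y then m (fun y => σ y) (fun y => τ y) else 0

/-- The index sets of an admissible Hamiltonian: nonempty sets of `ℓ¹`-diameter at most `R`. -/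
def admissibleSets (L R : ℕ) : Finset (Finset (Site L)) :=
  Finset.univ.filter fun X => X.Nonempty ∧ ∀ x ∈ X, ∀ y ∈ X, l1 x y ≤ R

/-- The family `h X`, for `X` of diameter at most `R`, consists of Hermitian operators acting on
`X` of operator norm at most `J`. -/
structure IsAdmissible {L q : ℕ} (R : ℕ) (J : ℝ)
    (h : Finset (Site L) → Matrix (Site L → Fin q) (Site L → Fin q) ℂ) : Prop where
  herm : ∀ X ∈ admissibleSets L R, (h X).IsHermitian
  acts : ∀ X ∈ admissibleSets L R, ActsOn X (h X)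
  norm_le : ∀ X ∈ admissibleSets L R, ∀ v : (Site L → Fin q) → ℂ,
    ∑ σ, ‖(h X *ᵥ v) σ‖ ^ 2 ≤ J ^ 2 * ∑ σ, ‖v σ‖ ^ 2

/-- The Hamiltonian `H = ∑ h X`, one term per admissible set. -/
noncomputable def hamiltonian {L q : ℕ} (R : ℕ)
    (h : Finset (Site L) → Matrix (Site L → Fin q) (Site L → Fin q) ℂ) :
    Matrix (Site L → Fin q) (Site L → Fin q) ℂ :=
  ∑ X ∈ admissibleSets L R, h X

/-- `Ω` is a unit eigenvector of `H` with eigenvalue `E₀` and `H - E₀ ≥ Δ (1 - |Ω⟩⟨Ω|)`. For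
`Δ > 0` this says that `E₀` is the lowest eigenvalue, it is simple, and the gap is at least `Δ`. -/
structure IsGappedGroundState {κ : Type} [Fintype κ] (H : Matrix κ κ ℂ) (Δ E₀ : ℝ)
    (Ω : κ → ℂ) : Prop where
  unit : ∑ σ, ‖Ω σ‖ ^ 2 = 1
  eigen : H *ᵥ Ω = (E₀ : ℂ) • Ω
  gap : ∀ v : κ → ℂ, Δ * (∑ σ, ‖v σ‖ ^ 2 - ‖star Ω ⬝ᵥ v‖ ^ 2) ≤
    (star v ⬝ᵥ (H *ᵥ v)).re - E₀ * ∑ σ, ‖v σ‖ ^ 2

/-- The configuration equal to `a` on `A` and to `b` off `A`. -/
def glue {ι : Type} [DecidableEq ι] {q : ℕ} (A : Finset ι) (a : A → Fin q)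
    (b : {x // x ∉ A} → Fin q) : ι → Fin q :=
  fun x => if hx : x ∈ A then a ⟨x, hx⟩ else b ⟨x, hx⟩

/-- The reduced density matrix `Tr_{Aᶜ} |Ω⟩⟨Ω|` on the sites of `A`. -/
noncomputable def reduced {ι : Type} [Fintype ι] [DecidableEq ι] {q : ℕ} (A : Finset ι)
    (Ω : (ι → Fin q) → ℂ) : Matrix (A → Fin q) (A → Fin q) ℂ :=
  Matrix.of fun a a' => ∑ b : ({x // x ∉ A} → Fin q), Ω (glue A a b) * star (Ω (glue A a' b))

/-- von Neumann entropy `- Tr ρ log ρ` of a Hermitian matrix, as the sum of `- λ log λ` over its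
eigenvalues (natural logarithm; `0 log 0 = 0`). -/
noncomputable def entropy {α : Type} [Fintype α] [DecidableEq α] (ρ : Matrix α α ℂ) : ℝ :=
  if h : ρ.IsHermitian then ∑ i, Real.negMulLog (h.eigenvalues i) else 0

/-- The edge boundary of `A`: pairs `(x, y)` with `x ∈ A`, `y ∉ A`, `|x - y|₁ = 1`. -/
def edgeBoundary {L : ℕ} (A : Finset (Site L)) : Finset (Site L × Site L) :=
  Finset.univ.filter fun p => p.1 ∈ A ∧ p.2 ∉ A ∧ l1 p.1 p.2 = 1

end Vale.Agent.Lib.P356
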