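import Vale.Agent.Lib.P356.Defs

/-!
Abstract facts on the von Neumann entropy of density matrices on finite index types:
the sharpened maximum-entropy bound and subadditivity.
-/

open Matrix
open scoped ComplexOrder

namespace Vale.Agent.Lib.P356

section scalar

/-- Strong convexity of `x log x` on `(0,1]`, in the form of a tangent-line bound. -/
lemma negMulLog_le_tangent {l u : ℝ} (hl0 : 0 ≤ l) (hl1 : l ≤ 1) (hu0 : 0 < u) (hu1 : u ≤ 1) :
    Real.negMulLog l ≤ Real.negMulLog u + (-Real.log u - 1) * (l - u) - (l - u) ^ 2 / 2 := by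
  rcases hl0.eq_or_lt with rfl | hlpos
  · simp only [Real.negMulLog]
    nlinarith
  -- the auxiliary function
  set ψ : ℝ → ℝ := fun x => x * Real.log x - x ^ 2 / 2 - (Real.log u + 1 - u) * x with hψ
  have hder : ∀ x : ℝ, 0 < x → HasDerivAt ψ (Real.log x + 1 - x - (Real.log u + 1 - u)) x := by
    intro x hx
    have h1 : HasDerivAt (fun y : ℝ => y * Real.log y) (Real.log x + 1) x :=
      Real.hasDerivAt_mul_log hx.ne'
    have h2 : HasDerivAt (fun y : ℝ => y ^ 2 / 2) x x := by
      have := (hasDerivAt_pow 2 x).div_const 2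
      simpa using this
    have h3 : HasDerivAt (fun y : ℝ => (Real.log u + 1 - u) * y) (Real.log u + 1 - u) x := by
      simpa using (hasDerivAt_id x).const_mul (Real.log u + 1 - u)
    exact (h1.sub h2).sub h3
  -- monotonicity of log x - x on (0,1]
  have hmono : ∀ a b : ℝ, 0 < a → a ≤ b → b ≤ 1 → b - a ≤ Real.log b - Real.log a := by
    intro a b ha hab hb
    have hbpos : 0 < b := lt_of_lt_of_le ha hab
    have h1 : 1 - a / b ≤ Real.log (b / a) := by
      have := Real.one_sub_inv_le_log_of_pos (div_pos hbpos ha)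
      rwa [inv_div] at this
    rw [Real.log_div hbpos.ne' ha.ne'] at h1
    have h2 : (b - a) / b = 1 - a / b := by field_simp
    have h3 : b - a ≤ (b - a) / b := by
      rw [le_div_iff₀ hbpos]
      nlinarith [sub_nonneg.mpr hab]
    linarith
  have key : ψ u ≤ ψ l := by
    rcases le_total u l with hul | hlu
    · -- l ≥ u
      have hm : MonotoneOn ψ (Set.Icc u l) := by
        apply monotoneOn_of_deriv_nonneg (convex_Icc u l)
        · intro x hx
          exact (hder x (lt_of_lt_of_le hu0 hx.1)).continuousAt.continuousWithinAt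
        · intro x hx
          rw [interior_Icc] at hx
          exact (hder x (lt_trans hu0 hx.1)).differentiableAt.differentiableWithinAt
        · intro x hx
          rw [interior_Icc] at hx
          rw [(hder x (lt_trans hu0 hx.1)).deriv]
          have := hmono u x hu0 hx.1.le (le_trans hx.2.le hl1)
          linarith
      exact hm (Set.left_mem_Icc.mpr hul) (Set.right_mem_Icc.mpr hul) hul
    · -- l ≤ u
      have hm : AntitoneOn ψ (Set.Icc l u) := by
        apply antitoneOn_of_deriv_nonpos (convex_Icc l u)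
        · intro x hx
          exact (hder x (lt_of_lt_of_le hlpos hx.1)).continuousAt.continuousWithinAt
        · intro x hx
          rw [interior_Icc] at hx
          exact (hder x (lt_trans hlpos hx.1)).differentiableAt.differentiableWithinAt
        · intro x hx
          rw [interior_Icc] at hx
          rw [(hder x (lt_trans hlpos hx.1)).deriv]
          have := hmono x u (lt_trans hlpos hx.1) hx.2.le hu1
          linarith
      exact hm (Set.left_mem_Icc.mpr hlu) (Set.right_mem_Icc.mpr hlu) hlu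
  simp only [hψ] at key
  simp only [Real.negMulLog]
  nlinarith [key]

/-- The termwise inequality behind subadditivity. -/
lemma term_ineq {p u a b : ℝ} (hp : 0 ≤ p) (hu : 0 ≤ u) (ha : 0 ≤ a) (hb : 0 ≤ b)
    (h : a * b = 0 → p * u = 0) :
    p * (u - a * b) ≤ p * (u * Real.log u - u * Real.log a - u * Real.log b) := by
  rcases (mul_nonneg ha hb).eq_or_lt with hab | hab
  · have h0 := h hab.symm
    rw [← hab]
    have : p * (u * Real.log u - u * Real.log a - u * Real.log b)
        = (p * u) * (Real.log u - Real.log a - Real.log b) := by ring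
    rw [this, h0]
    have : p * (u - 0) = p * u := by ring
    rw [this, h0]
    simp
  · have ha' : 0 < a := by
      rcases ha.eq_or_lt with h' | h'
      · rw [← h'] at hab; simp at hab
      · exact h'
    have hb' : 0 < b := by
      rcases hb.eq_or_lt with h' | h'
      · rw [← h'] at hab; simp at hab
      · exact h'
    apply mul_le_mul_of_nonneg_left _ hp
    rcases hu.eq_or_lt with rfl | hu'
    · simp; positivity
    · have h1 : 1 - (a * b) / u ≤ Real.log (u / (a * b)) := by
        have := Real.one_sub_inv_le_log_of_pos (div_pos hu' hab)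
        rwa [inv_div] at this
      rw [Real.log_div hu'.ne' hab.ne', Real.log_mul ha'.ne' hb'.ne'] at h1
      have h2 : u * (1 - (a * b) / u) ≤ u * (Real.log u - (Real.log a + Real.log b)) :=
        mul_le_mul_of_nonneg_left h1 hu
      have h3 : u * (1 - (a * b) / u) = u - a * b := by field_simp
      nlinarith

end scalar

section density

variable {α β : Type} [Fintype α] [DecidableEq α] [Fintype β] [DecidableEq β]

lemma entropy_eq {ρ : Matrix α α ℂ} (h : ρ.IsHermitian) :
    entropy ρ = ∑ i, Real.negMulLog (h.eigenvalues i) := by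
  simp [entropy, h]

lemma sum_eigenvalues_eq_one {ρ : Matrix α α ℂ} (h : ρ.IsHermitian) (htr : ρ.trace = 1) :
    ∑ i, h.eigenvalues i = 1 := by
  have := h.trace_eq_sum_eigenvalues
  rw [htr] at this
  have h2 : ((∑ i, h.eigenvalues i : ℝ) : ℂ) = 1 := by
    rw [this]; push_cast; rfl
  exact_mod_cast h2

/-- The squared Hilbert-Schmidt norm in terms of the eigenvalues. -/
lemma sum_norm_sq_entries {ρ : Matrix α α ℂ} (h : ρ.IsHermitian) :
    ∑ a, ∑ a', ‖ρ a a'‖ ^ 2 = ∑ i, (h.eigenvalues i) ^ 2 := by
  have h1 : (ρ * ρ).trace = ∑ i, ((h.eigenvalues i : ℂ)) ^ 2 := by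
    set U : Matrix α α ℂ := (h.eigenvectorUnitary : Matrix α α ℂ) with hU
    set D : Matrix α α ℂ := diagonal (RCLike.ofReal ∘ h.eigenvalues) with hD
    have hspec : ρ = U * D * star U := by
      have := h.spectral_theorem
      simpa [Unitary.conjStarAlgAut_apply, hU, hD] using this
    have hUU : star U * U = 1 := by
      simp [hU]
    have : ρ * ρ = U * (D * D) * star U := by
      calc ρ * ρ = U * D * (star U * U) * D * star U := by
            conv_lhs => rw [hspec]
            simp only [Matrix.mul_assoc]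
        _ = U * (D * D) * star U := by
            rw [hUU]; simp [Matrix.mul_assoc]
    rw [this, Matrix.trace_mul_comm, ← Matrix.mul_assoc, hUU, Matrix.one_mul]
    simp [hD, Matrix.trace, diagonal_mul_diagonal, sq]
  have h2 : (ρ * ρ).trace = ((∑ a, ∑ a', ‖ρ a a'‖ ^ 2 : ℝ) : ℂ) := by
    simp only [Matrix.trace, Matrix.diag, Matrix.mul_apply]
    push_cast
    apply Finset.sum_congr rfl
    intro a _
    apply Finset.sum_congr rfl
    intro a' _
    have : ρ a' a = star (ρ a a') := by
      have := congrFun (congrFun h a') a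
      simpa [Matrix.conjTranspose_apply] using this.symm
    rw [this, Complex.star_def, Complex.mul_conj, Complex.normSq_eq_norm_sq]
    push_cast
    rfl
  have h3 : ((∑ a, ∑ a', ‖ρ a a'‖ ^ 2 : ℝ) : ℂ) = ((∑ i, (h.eigenvalues i) ^ 2 : ℝ) : ℂ) := by
    rw [← h2, h1]; push_cast; rfl
  exact_mod_cast h3

/-- The squared Hilbert-Schmidt distance to the maximally mixed matrix. -/
lemma sum_dev_sq {ρ : Matrix α α ℂ} (h : ρ.IsHermitian) (htr : ρ.trace = 1) :
    ∑ a, ∑ a', ‖ρ a a' - (if a = a' then (((Fintype.card α : ℝ)⁻¹ : ℝ) : ℂ) else 0)‖ ^ 2 =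
      ∑ i, (h.eigenvalues i - (Fintype.card α : ℝ)⁻¹) ^ 2 := by
  classical
  haveI : Nonempty α := by
    by_contra hne
    rw [not_nonempty_iff] at hne
    have : ρ.trace = 0 := by simp [Matrix.trace]
    rw [htr] at this
    exact one_ne_zero this
  set D : ℝ := (Fintype.card α : ℝ) with hD
  have hDpos : 0 < D := by
    rw [hD]; exact_mod_cast Fintype.card_pos
  have hre : ∑ a, (ρ a a).re = 1 := by
    have := congrArg Complex.re htr
    simpa [Matrix.trace, Complex.re_sum] using this
  have hterm : ∀ a a', ‖ρ a a' - (if a = a' then ((D⁻¹ : ℝ) : ℂ) else 0)‖ ^ 2 =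
      ‖ρ a a'‖ ^ 2 + (if a = a' then (-2 * D⁻¹ * (ρ a a').re + (D⁻¹) ^ 2) else 0) := by
    intro a a'
    split_ifs with haa
    · rw [← Complex.normSq_eq_norm_sq, ← Complex.normSq_eq_norm_sq, Complex.normSq_sub,
        Complex.normSq_ofReal]
      simp [Complex.mul_re, Complex.conj_ofReal]
      ring
    · simp
  have hsum : ∑ a, ∑ a', ‖ρ a a' - (if a = a' then ((D⁻¹ : ℝ) : ℂ) else 0)‖ ^ 2 =
      ∑ a, ∑ a', ‖ρ a a'‖ ^ 2 - D⁻¹ := by
    simp_rw [hterm, Finset.sum_add_distrib]
    have h2 : ∑ a, ∑ a', (if a = a' then (-2 * D⁻¹ * (ρ a a').re + (D⁻¹) ^ 2) else 0)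
        = - D⁻¹ := by
      simp only [Finset.sum_ite_eq, Finset.mem_univ, if_true]
      rw [Finset.sum_add_distrib, ← Finset.mul_sum, hre]
      simp only [Finset.sum_const, Finset.card_univ, nsmul_eq_mul]
      rw [← hD]
      field_simp
      ring
    rw [h2]; ring
  rw [hsum, sum_norm_sq_entries h]
  have hs1 := sum_eigenvalues_eq_one h htr
  have : ∑ i, (h.eigenvalues i - D⁻¹) ^ 2 =
      ∑ i, (h.eigenvalues i) ^ 2 - 2 * D⁻¹ * ∑ i, h.eigenvalues i + D * (D⁻¹) ^ 2 := by
    have : ∀ i, (h.eigenvalues i - D⁻¹) ^ 2 =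
        (h.eigenvalues i) ^ 2 - 2 * D⁻¹ * h.eigenvalues i + (D⁻¹) ^ 2 := by intro i; ring
    simp_rw [this, Finset.sum_add_distrib, Finset.sum_sub_distrib, ← Finset.mul_sum]
    simp [hD]
  rw [this, hs1]
  field_simp
  ring

/-- The sharpened maximum-entropy bound for density matrices. -/
theorem entropy_le_log_card_sub {ρ : Matrix α α ℂ} (hρ : ρ.PosSemidef) (htr : ρ.trace = 1) :
    entropy ρ ≤ Real.log (Fintype.card α) -
      (∑ a, ∑ a', ‖ρ a a' - (if a = a' then (((Fintype.card α : ℝ)⁻¹ : ℝ) : ℂ) else 0)‖ ^ 2) / 2 := by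
  classical
  have h := hρ.isHermitian
  haveI : Nonempty α := by
    by_contra hne
    rw [not_nonempty_iff] at hne
    have : ρ.trace = 0 := by simp [Matrix.trace]
    rw [htr] at this
    exact one_ne_zero this
  rw [entropy_eq h, sum_dev_sq h htr]
  set D : ℝ := (Fintype.card α : ℝ) with hD
  have hD1 : (1 : ℝ) ≤ D := by
    rw [hD]; exact_mod_cast Fintype.card_pos
  have hDpos : 0 < D := by linarith
  have hs1 := sum_eigenvalues_eq_one h htr
  have hnn : ∀ i, 0 ≤ h.eigenvalues i := fun i => hρ.eigenvalues_nonneg i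
  have hle1 : ∀ i, h.eigenvalues i ≤ 1 := by
    intro i
    rw [← hs1]
    exact Finset.single_le_sum (fun j _ => hnn j) (Finset.mem_univ i)
  have hu0 : 0 < D⁻¹ := inv_pos.mpr hDpos
  have hu1 : D⁻¹ ≤ 1 := inv_le_one_of_one_le₀ hD1
  have hterm := fun i => negMulLog_le_tangent (hnn i) (hle1 i) hu0 hu1
  calc ∑ i, Real.negMulLog (h.eigenvalues i)
      ≤ ∑ i, (Real.negMulLog D⁻¹ + (-Real.log D⁻¹ - 1) * (h.eigenvalues i - D⁻¹)
          - (h.eigenvalues i - D⁻¹) ^ 2 / 2) := Finset.sum_le_sum fun i _ => hterm i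
    _ = Real.log D - (∑ i, (h.eigenvalues i - D⁻¹) ^ 2) / 2 := by
        rw [Finset.sum_sub_distrib, Finset.sum_add_distrib, ← Finset.mul_sum,
          Finset.sum_sub_distrib, hs1, Finset.sum_div]
        simp only [Finset.sum_const, Finset.card_univ, nsmul_eq_mul]
        rw [← hD, Real.negMulLog, Real.log_inv]
        field_simp
        ring

theorem entropy_le_log_card {ρ : Matrix α α ℂ} (hρ : ρ.PosSemidef) (htr : ρ.trace = 1) :
    entropy ρ ≤ Real.log (Fintype.card α) := by
  have h := entropy_le_log_card_sub hρ htr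
  have h2 : 0 ≤ (∑ a, ∑ a', ‖ρ a a' - (if a = a' then (((Fintype.card α : ℝ)⁻¹ : ℝ) : ℂ) else 0)‖ ^ 2) / 2 := by
    positivity
  linarith

end density

end Vale.Agent.Lib.P356
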