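import Vale.Agent.Lib.P356.Defs

/-!
Combinatorics of the box: balls, their sizes, a lattice-path crossing lemma and a packing lemma.
-/

namespace Vale.Agent.Lib.P356

variable {L : ℕ}

lemma l1_comm (x y : Site L) : l1 x y = l1 y x := by
  simp only [l1, Nat.dist_comm]

lemma l1_self (x : Site L) : l1 x x = 0 := by
  simp [l1]

lemma l1_triangle (x y z : Site L) : l1 x z ≤ l1 x y + l1 y z := by
  simp only [l1, Nat.dist]
  omega

/-- The `ℓ¹` ball of radius `r` around a site. -/
def ball (r : ℕ) (x : Site L) : Finset (Site L) := Finset.univ.filter fun y => l1 x y ≤ r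

@[simp] lemma mem_ball {r : ℕ} {x y : Site L} : y ∈ ball r x ↔ l1 x y ≤ r := by
  simp [ball]

lemma self_mem_ball (r : ℕ) (x : Site L) : x ∈ ball r x := by
  simp [l1_self]

lemma card_fin_dist_le (a : Fin L) (r : ℕ) :
    (Finset.univ.filter fun b : Fin L => Nat.dist a b ≤ r).card ≤ 2 * r + 1 := by
  have hinj : Set.InjOn (fun b : Fin L => (b : ℕ))
      (Finset.univ.filter fun b : Fin L => Nat.dist a b ≤ r : Finset (Fin L)) := by
    intro b _ c _ h
    exact Fin.ext h
  have hsub : (Finset.image (fun b : Fin L => (b : ℕ))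
      (Finset.univ.filter fun b : Fin L => Nat.dist a b ≤ r)) ⊆
      Finset.Icc ((a : ℕ) - r) ((a : ℕ) + r) := by
    intro n hn
    simp only [Finset.mem_image, Finset.mem_filter, Finset.mem_univ, true_and] at hn
    obtain ⟨b, hb, rfl⟩ := hn
    simp only [Nat.dist] at hb
    simp only [Finset.mem_Icc]
    omega
  calc _ = (Finset.image (fun b : Fin L => (b : ℕ))
        (Finset.univ.filter fun b : Fin L => Nat.dist a b ≤ r)).card :=
        (Finset.card_image_of_injOn hinj).symm
    _ ≤ (Finset.Icc ((a : ℕ) - r) ((a : ℕ) + r)).card := Finset.card_le_card hsub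
    _ ≤ 2 * r + 1 := by
      simp only [Nat.card_Icc]
      omega

/-- The size of a ball is at most `(2r+1)²`. -/
lemma card_ball_le (r : ℕ) (x : Site L) : (ball r x).card ≤ (2 * r + 1) ^ 2 := by
  have hsub : ball r x ⊆ (Finset.univ.filter fun b : Fin L => Nat.dist x.1 b ≤ r) ×ˢ
      (Finset.univ.filter fun b : Fin L => Nat.dist x.2 b ≤ r) := by
    intro y hy
    simp only [mem_ball, l1] at hy
    simp only [Finset.mem_product, Finset.mem_filter, Finset.mem_univ, true_and]
    omega
  calc (ball r x).card ≤ _ := Finset.card_le_card hsub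
    _ = _ := Finset.card_product _ _
    _ ≤ (2 * r + 1) * (2 * r + 1) :=
        Nat.mul_le_mul (card_fin_dist_le _ _) (card_fin_dist_le _ _)
    _ = (2 * r + 1) ^ 2 := by ring

/-- One lattice step towards a different site. -/
lemma exists_step (x y : Site L) (hxy : x ≠ y) :
    ∃ w : Site L, l1 x w = 1 ∧ l1 w y + 1 = l1 x y := by
  by_cases h1 : (x.1 : ℕ) = y.1
  · have h2 : (x.2 : ℕ) ≠ y.2 := by
      intro h
      apply hxy
      exact Prod.ext (Fin.ext h1) (Fin.ext h)
    rcases Nat.lt_or_gt_of_ne h2 with h3 | h3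
    · refine ⟨(x.1, ⟨x.2 + 1, by omega⟩), ?_, ?_⟩
      · simp only [l1, Nat.dist]; omega
      · simp only [l1, Nat.dist]; omega
    · refine ⟨(x.1, ⟨x.2 - 1, by omega⟩), ?_, ?_⟩
      · simp only [l1, Nat.dist]; omega
      · simp only [l1, Nat.dist]; omega
  · rcases Nat.lt_or_gt_of_ne h1 with h3 | h3
    · refine ⟨(⟨x.1 + 1, by omega⟩, x.2), ?_, ?_⟩
      · simp only [l1, Nat.dist]; omega
      · simp only [l1, Nat.dist]; omega
    · refine ⟨(⟨x.1 - 1, by omega⟩, x.2), ?_, ?_⟩
      · simp only [l1, Nat.dist]; omega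
      · simp only [l1, Nat.dist]; omega

/-- A lattice path from `A` to its complement crosses an edge of the boundary. -/
lemma exists_crossing (A : Finset (Site L)) :
    ∀ (d : ℕ) (x y : Site L), x ∈ A → y ∉ A → l1 x y ≤ d →
      ∃ e ∈ edgeBoundary A, l1 x e.1 ≤ d := by
  intro d
  induction d with
  | zero =>
    intro x y hx hy hd
    exfalso
    have : x = y := by
      simp only [l1, Nat.dist] at hd
      apply Prod.ext <;> apply Fin.ext <;> omega
    exact hy (this ▸ hx)
  | succ d ih =>
    intro x y hx hy hd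
    have hxy : x ≠ y := fun h => hy (h ▸ hx)
    obtain ⟨w, hw1, hw2⟩ := exists_step x y hxy
    by_cases hwA : w ∈ A
    · obtain ⟨e, he, hed⟩ := ih w y hwA hy (by omega)
      refine ⟨e, he, ?_⟩
      have := l1_triangle x w e.1
      omega
    · refine ⟨(x, w), ?_, ?_⟩
      · simp [edgeBoundary, hx, hwA, hw1]
      · simp [l1_self]

/-- The sites of `A` whose whole `r`-ball lies in `A`. -/
def interior (r : ℕ) (A : Finset (Site L)) : Finset (Site L) :=
  A.filter fun x => ball r x ⊆ A

/-- The sites of `A` outside the interior are controlled by the edge boundary. -/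
lemma card_sdiff_interior_le (r : ℕ) (A : Finset (Site L)) :
    (A \ interior r A).card ≤ (edgeBoundary A).card * (2 * r + 1) ^ 2 := by
  have hsub : A \ interior r A ⊆ (edgeBoundary A).biUnion fun e => ball r e.1 := by
    intro x hx
    simp only [Finset.mem_sdiff, interior, Finset.mem_filter, not_and] at hx
    obtain ⟨hxA, hx2⟩ := hx
    have hx3 := hx2 hxA
    rw [Finset.not_subset] at hx3
    obtain ⟨y, hy1, hy2⟩ := hx3
    rw [mem_ball] at hy1
    obtain ⟨e, he, hed⟩ := exists_crossing A r x y hxA hy2 hy1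
    rw [Finset.mem_biUnion]
    refine ⟨e, he, ?_⟩
    rw [mem_ball, l1_comm]
    exact hed
  calc (A \ interior r A).card ≤ _ := Finset.card_le_card hsub
    _ ≤ ∑ e ∈ edgeBoundary A, (ball r e.1).card := Finset.card_biUnion_le
    _ ≤ ∑ _e ∈ edgeBoundary A, (2 * r + 1) ^ 2 :=
        Finset.sum_le_sum fun e _ => card_ball_le r e.1
    _ = _ := by simp

/-- A maximal packing of balls around sites of a given set. -/
lemma exists_packing (r : ℕ) (S : Finset (Site L)) :
    ∃ T ⊆ S, (∀ s ∈ T, ∀ t ∈ T, s ≠ t → Disjoint (ball r s) (ball r t)) ∧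
      S.card ≤ T.card * (2 * (2 * r) + 1) ^ 2 := by
  classical
  set F : Finset (Finset (Site L)) := S.powerset.filter
    (fun T => ∀ s ∈ T, ∀ t ∈ T, s ≠ t → Disjoint (ball r s) (ball r t)) with hF
  have hFne : F.Nonempty := ⟨∅, by simp [hF]⟩
  obtain ⟨T, hT, hmax⟩ := Finset.exists_max_image F Finset.card hFne
  rw [hF, Finset.mem_filter, Finset.mem_powerset] at hT
  obtain ⟨hTS, hTd⟩ := hT
  refine ⟨T, hTS, hTd, ?_⟩
  have hcover : S ⊆ T.biUnion fun t => ball (2 * r) t := by
    intro z hz
    rw [Finset.mem_biUnion]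
    by_cases hzT : z ∈ T
    · exact ⟨z, hzT, self_mem_ball _ _⟩
    by_cases hex : ∃ t ∈ T, ¬ Disjoint (ball r z) (ball r t)
    · obtain ⟨t, ht, hnd⟩ := hex
      rw [Finset.not_disjoint_iff] at hnd
      obtain ⟨y, hy1, hy2⟩ := hnd
      rw [mem_ball] at hy1 hy2
      refine ⟨t, ht, ?_⟩
      rw [mem_ball]
      have := l1_triangle t y z
      rw [l1_comm y z] at this
      omega
    · exfalso
      push Not at hex
      have hins : insert z T ∈ F := by
        rw [hF, Finset.mem_filter, Finset.mem_powerset]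
        refine ⟨Finset.insert_subset hz hTS, ?_⟩
        intro s hs t ht hst
        rw [Finset.mem_insert] at hs ht
        rcases hs with rfl | hs
        · rcases ht with rfl | ht
          · exact absurd rfl hst
          · exact hex t ht
        · rcases ht with rfl | ht
          · exact (hex s hs).symm
          · exact hTd s hs t ht hst
      have := hmax _ hins
      rw [Finset.card_insert_of_notMem hzT] at this
      omega
  calc S.card ≤ _ := Finset.card_le_card hcover
    _ ≤ ∑ t ∈ T, (ball (2 * r) t).card := Finset.card_biUnion_le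
    _ ≤ ∑ _t ∈ T, (2 * (2 * r) + 1) ^ 2 := Finset.sum_le_sum fun t _ => card_ball_le _ t
    _ = _ := by simp

/-- The edge boundary of the complement has the same size. -/
lemma card_edgeBoundary_compl (A : Finset (Site L)) :
    (edgeBoundary Aᶜ).card = (edgeBoundary A).card := by
  apply Finset.card_bij (fun p _ => (p.2, p.1))
  · intro p hp
    simp only [edgeBoundary, Finset.mem_filter, Finset.mem_univ, true_and, Finset.mem_compl,
      not_not] at hp ⊢
    exact ⟨hp.2.1, hp.1, by rw [l1_comm]; exact hp.2.2⟩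
  · intro p _ q _ h
    simp only [Prod.mk.injEq] at h
    exact Prod.ext h.2 h.1
  · intro p hp
    refine ⟨(p.2, p.1), ?_, rfl⟩
    simp only [edgeBoundary, Finset.mem_filter, Finset.mem_univ, true_and, Finset.mem_compl,
      not_not] at hp ⊢
    exact ⟨hp.2.1, hp.1, by rw [l1_comm]; exact hp.2.2⟩

end Vale.Agent.Lib.P356
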