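import Vale.Agent.Lib.P356.Reduced

/-!
Operators acting on a subset of the sites.
-/

open Matrix
open scoped ComplexOrder

namespace Vale.Agent.Lib.P356

variable {ι : Type} [Fintype ι] [DecidableEq ι] {q : ℕ}

/-- The operator on the whole lattice given by a matrix on the configurations of `X`. -/
def lift (X : Finset ι) (m : Matrix (X → Fin q) (X → Fin q) ℂ) :
    Matrix (ι → Fin q) (ι → Fin q) ℂ :=
  Matrix.of fun σ τ => if ∀ y, y ∉ X → σ y = τ y then m (fun y => σ y) (fun y => τ y) else 0

lemma lift_apply (X : Finset ι) (m : Matrix (X → Fin q) (X → Fin q) ℂ) (σ τ : ι → Fin q) :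
    lift X m σ τ = if ∀ y, y ∉ X → σ y = τ y then m (fun y => σ y) (fun y => τ y) else 0 := rfl

lemma actsOn_iff {X : Finset ι} {M : Matrix (ι → Fin q) (ι → Fin q) ℂ} :
    ActsOn X M ↔ ∃ m, M = lift X m := by
  constructor
  · rintro ⟨m, hm⟩
    exact ⟨m, by ext σ τ; simp [lift_apply, hm]⟩
  · rintro ⟨m, rfl⟩
    exact ⟨m, fun σ τ => rfl⟩

lemma actsOn_lift (X : Finset ι) (m : Matrix (X → Fin q) (X → Fin q) ℂ) : ActsOn X (lift X m) :=
  actsOn_iff.mpr ⟨m, rfl⟩

lemma glue_restrict_left (A : Finset ι) (a : A → Fin q) (b : {x // x ∉ A} → Fin q) :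
    (fun y : A => glue A a b y) = a := by
  funext y; simp

lemma glue_restrict_right (A : Finset ι) (a : A → Fin q) (b : {x // x ∉ A} → Fin q) :
    (fun y : {x // x ∉ A} => glue A a b y) = b := by
  funext y; simp

/-- Entry of a lifted operator on glued configurations. -/
lemma lift_glue (X : Finset ι) (m : Matrix (X → Fin q) (X → Fin q) ℂ) (a a' : X → Fin q)
    (b b' : {x // x ∉ X} → Fin q) :
    lift X m (glue X a b) (glue X a' b') = if b = b' then m a a' else 0 := by
  rw [lift_apply, glue_restrict_left, glue_restrict_left]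
  by_cases h : b = b'
  · subst h
    rw [if_pos rfl, if_pos]
    intro y hy
    have h1 := glue_apply_not_mem X a b ⟨y, hy⟩
    have h2 := glue_apply_not_mem X a' b ⟨y, hy⟩
    simp only at h1 h2
    rw [h1, h2]
  · rw [if_neg h, if_neg]
    intro hall
    apply h
    funext y
    have := hall y.1 y.2
    rw [show glue X a b y.1 = b y from glue_apply_not_mem X a b y,
      show glue X a' b' y.1 = b' y from glue_apply_not_mem X a' b' y] at this
    exact this

/-- Expectation of a lifted operator in terms of the reduced density matrix. -/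
lemma expectation_lift (X : Finset ι) (m : Matrix (X → Fin q) (X → Fin q) ℂ)
    (Ω : (ι → Fin q) → ℂ) :
    star Ω ⬝ᵥ (lift X m *ᵥ Ω) = ∑ a, ∑ a', m a a' * reduced X Ω a' a := by
  simp only [dotProduct, Matrix.mulVec, Pi.star_apply]
  rw [← sum_glue X]
  apply Finset.sum_congr rfl; intro a _
  have : ∀ b : {x // x ∉ X} → Fin q,
      star (Ω (glue X a b)) * ∑ τ, lift X m (glue X a b) τ * Ω τ =
      ∑ a', m a a' * (Ω (glue X a' b) * star (Ω (glue X a b))) := by
    intro b
    rw [← sum_glue X, Finset.mul_sum]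
    apply Finset.sum_congr rfl; intro a' _
    rw [Finset.sum_eq_single b]
    · rw [lift_glue, if_pos rfl]; ring
    · intro b' _ hb
      rw [lift_glue, if_neg (Ne.symm hb)]; simp
    · simp
  simp_rw [this]
  rw [Finset.sum_comm]
  apply Finset.sum_congr rfl; intro a' _
  rw [← Finset.mul_sum]
  rfl

lemma trace_lift (X : Finset ι) (m : Matrix (X → Fin q) (X → Fin q) ℂ) :
    (lift X m).trace = (Fintype.card ({x // x ∉ X} → Fin q) : ℂ) * m.trace := by
  simp only [Matrix.trace, Matrix.diag]
  rw [← sum_glue X]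
  simp_rw [lift_glue, if_true]
  rw [Finset.mul_sum]
  apply Finset.sum_congr rfl; intro a _
  simp

lemma sum_norm_sq_lift (X : Finset ι) (m : Matrix (X → Fin q) (X → Fin q) ℂ) :
    ∑ σ, ∑ τ, ‖lift X m σ τ‖ ^ 2 =
      (Fintype.card ({x // x ∉ X} → Fin q) : ℝ) * ∑ a, ∑ a', ‖m a a'‖ ^ 2 := by
  rw [← sum_glue_real X]
  have : ∀ a b, ∑ τ, ‖lift X m (glue X a b) τ‖ ^ 2 = ∑ a', ‖m a a'‖ ^ 2 := by
    intro a b
    rw [← sum_glue_real X]
    apply Finset.sum_congr rfl; intro a' _
    rw [Finset.sum_eq_single b]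
    · rw [lift_glue, if_pos rfl]
    · intro b' _ hb
      rw [lift_glue, if_neg (Ne.symm hb)]; simp
    · simp
  simp_rw [this]
  rw [Finset.mul_sum]
  apply Finset.sum_congr rfl; intro a _
  simp

lemma lift_mul (X : Finset ι) (m n : Matrix (X → Fin q) (X → Fin q) ℂ) :
    lift X m * lift X n = lift X (m * n) := by
  ext σ τ
  rw [Matrix.mul_apply, ← sum_glue X]
  have h1 : ∀ a : X → Fin q, ∑ b : {x // x ∉ X} → Fin q,
      lift X m σ (glue X a b) * lift X n (glue X a b) τ =
      lift X m σ (glue X a (fun y => σ y)) * lift X n (glue X a (fun y => σ y)) τ := by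
    intro a
    apply Finset.sum_eq_single
    · intro b _ hb
      have : lift X m σ (glue X a b) = 0 := by
        rw [lift_apply, if_neg]
        intro hall
        apply hb
        funext y
        have := hall y.1 y.2
        rw [show glue X a b y.1 = b y from glue_apply_not_mem X a b y] at this
        exact this.symm
      rw [this, zero_mul]
    · simp
  simp_rw [h1]
  by_cases hagree : ∀ y, y ∉ X → σ y = τ y
  · have hσ : ∀ a : X → Fin q, lift X m σ (glue X a (fun y => σ y)) = m (fun y => σ y) a := by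
      intro a
      rw [lift_apply, if_pos, glue_restrict_left]
      intro y hy
      exact (glue_apply_not_mem X a (fun y => σ y) ⟨y, hy⟩).symm
    have hτ : ∀ a : X → Fin q, lift X n (glue X a (fun y => σ y)) τ = n a (fun y => τ y) := by
      intro a
      rw [lift_apply, if_pos, glue_restrict_left]
      intro y hy
      rw [show glue X a (fun y => σ y) y = σ y from glue_apply_not_mem X a (fun y => σ y) ⟨y, hy⟩]
      exact hagree y hy
    simp_rw [hσ, hτ]
    rw [lift_apply, if_pos hagree, Matrix.mul_apply]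
  · rw [lift_apply, if_neg hagree]
    apply Finset.sum_eq_zero
    intro a _
    have : lift X n (glue X a (fun y => σ y)) τ = 0 := by
      rw [lift_apply, if_neg]
      intro hall
      apply hagree
      intro y hy
      have := hall y hy
      rwa [show glue X a (fun y => σ y) y = σ y from
        glue_apply_not_mem X a (fun y => σ y) ⟨y, hy⟩] at this
    rw [this, mul_zero]

lemma lift_one (X : Finset ι) : lift X (1 : Matrix (X → Fin q) (X → Fin q) ℂ) = 1 := by
  ext σ τ
  rw [lift_apply]
  by_cases h : σ = τ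
  · subst h; simp
  · rw [Matrix.one_apply_ne h]
    by_cases hall : ∀ y, y ∉ X → σ y = τ y
    · rw [if_pos hall, Matrix.one_apply_ne]
      intro heq
      apply h
      funext y
      by_cases hy : y ∈ X
      · exact congrFun heq ⟨y, hy⟩
      · exact hall y hy
    · rw [if_neg hall]

lemma lift_star (X : Finset ι) (m : Matrix (X → Fin q) (X → Fin q) ℂ) :
    star (lift X m) = lift X (star m) := by
  ext σ τ
  rw [Matrix.star_apply, lift_apply, lift_apply, Matrix.star_apply]
  by_cases h : ∀ y, y ∉ X → σ y = τ y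
  · rw [if_pos h, if_pos (fun y hy => (h y hy).symm)]
  · rw [if_neg h, if_neg (fun h' => h (fun y hy => (h' y hy).symm))]
    simp

lemma lift_sub (X : Finset ι) (m n : Matrix (X → Fin q) (X → Fin q) ℂ) :
    lift X (m - n) = lift X m - lift X n := by
  ext σ τ
  simp only [Matrix.sub_apply, lift_apply]
  split_ifs <;> simp

lemma ActsOn.mul {X : Finset ι} {M N : Matrix (ι → Fin q) (ι → Fin q) ℂ} (hM : ActsOn X M)
    (hN : ActsOn X N) : ActsOn X (M * N) := by
  obtain ⟨m, rfl⟩ := actsOn_iff.mp hM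
  obtain ⟨n, rfl⟩ := actsOn_iff.mp hN
  rw [lift_mul]
  exact actsOn_lift _ _

lemma ActsOn.star {X : Finset ι} {M : Matrix (ι → Fin q) (ι → Fin q) ℂ} (hM : ActsOn X M) :
    ActsOn X (star M) := by
  obtain ⟨m, rfl⟩ := actsOn_iff.mp hM
  rw [lift_star]
  exact actsOn_lift _ _

lemma ActsOn.sub {X : Finset ι} {M N : Matrix (ι → Fin q) (ι → Fin q) ℂ} (hM : ActsOn X M)
    (hN : ActsOn X N) : ActsOn X (M - N) := by
  obtain ⟨m, rfl⟩ := actsOn_iff.mp hM
  obtain ⟨n, rfl⟩ := actsOn_iff.mp hN
  rw [← lift_sub]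
  exact actsOn_lift _ _

lemma ActsOn.mono {X Y : Finset ι} (hXY : X ⊆ Y) {M : Matrix (ι → Fin q) (ι → Fin q) ℂ}
    (hM : ActsOn X M) : ActsOn Y M := by
  obtain ⟨m, rfl⟩ := actsOn_iff.mp hM
  refine ⟨Matrix.of fun a a' => if ∀ y : Y, y.1 ∉ X → a y = a' y then
    m (fun x => a ⟨x.1, hXY x.2⟩) (fun x => a' ⟨x.1, hXY x.2⟩) else 0, ?_⟩
  intro σ τ
  rw [lift_apply]
  simp only [Matrix.of_apply]
  by_cases hX : ∀ y, y ∉ X → σ y = τ y
  · rw [if_pos hX, if_pos (fun y hy => hX y (fun h => hy (hXY h))),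
      if_pos (fun (y : Y) hy => hX y.1 hy)]
  · rw [if_neg hX]
    by_cases hY : ∀ y, y ∉ Y → σ y = τ y
    · rw [if_pos hY, if_neg]
      intro hall
      apply hX
      intro y hy
      by_cases hyY : y ∈ Y
      · exact hall ⟨y, hyY⟩ hy
      · exact hY y hyY
    · rw [if_neg hY]

/-- Product of operators acting on disjoint sets. -/
lemma lift_mul_lift_disjoint {X Y : Finset ι} (hd : Disjoint X Y)
    (m : Matrix (X → Fin q) (X → Fin q) ℂ) (n : Matrix (Y → Fin q) (Y → Fin q) ℂ)
    (σ τ : ι → Fin q) :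
    (lift X m * lift Y n) σ τ =
      if ∀ y, y ∉ X → y ∉ Y → σ y = τ y then
        m (fun y => σ y) (fun y => τ y) * n (fun y => σ y) (fun y => τ y) else 0 := by
  classical
  rw [Matrix.mul_apply]
  set ξ : ι → Fin q := fun y => if y ∈ X then τ y else σ y with hξ
  rw [Finset.sum_eq_single ξ]
  · have h1 : (fun y : X => ξ y) = fun y : X => τ y := by
      funext y; simp [hξ, y.2]
    have h2 : (fun y : Y => ξ y) = fun y : Y => σ y := by
      funext y
      have : y.1 ∉ X := fun h => (Finset.disjoint_left.mp hd) h y.2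
      simp [hξ, this]
    rw [lift_apply, lift_apply, h1, h2, if_pos]
    · by_cases hall : ∀ y, y ∉ X → y ∉ Y → σ y = τ y
      · rw [if_pos hall, if_pos]
        intro y hy
        by_cases hyX : y ∈ X
        · simp [hξ, hyX]
        · simp only [hξ, if_neg hyX]
          exact hall y hyX hy
      · rw [if_neg hall, if_neg, mul_zero]
        intro h'
        apply hall
        intro y hyX hyY
        have := h' y hyY
        simpa [hξ, hyX] using this
    · intro y hy
      simp [hξ, hy]
  · intro ξ' _ hne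
    by_contra hprod
    have h1 : lift X m σ ξ' ≠ 0 := left_ne_zero_of_mul hprod
    have h2 : lift Y n ξ' τ ≠ 0 := right_ne_zero_of_mul hprod
    rw [lift_apply] at h1 h2
    have hc1 : ∀ y, y ∉ X → σ y = ξ' y := by
      by_contra hcon
      rw [if_neg hcon] at h1
      exact h1 rfl
    have hc2 : ∀ y, y ∉ Y → ξ' y = τ y := by
      by_contra hcon
      rw [if_neg hcon] at h2
      exact h2 rfl
    apply hne
    funext y
    by_cases hyX : y ∈ X
    · have hyY : y ∉ Y := fun h => (Finset.disjoint_left.mp hd) hyX h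
      simp only [hξ, if_pos hyX]
      exact hc2 y hyY
    · simp only [hξ, if_neg hyX]
      exact (hc1 y hyX).symm
  · simp

/-- Operators acting on disjoint sets commute. -/
lemma ActsOn.commute {X Y : Finset ι} (hd : Disjoint X Y) {M N : Matrix (ι → Fin q) (ι → Fin q) ℂ}
    (hM : ActsOn X M) (hN : ActsOn Y N) : M * N = N * M := by
  obtain ⟨m, rfl⟩ := actsOn_iff.mp hM
  obtain ⟨n, rfl⟩ := actsOn_iff.mp hN
  ext σ τ
  rw [lift_mul_lift_disjoint hd, lift_mul_lift_disjoint hd.symm]
  by_cases h : ∀ y, y ∉ X → y ∉ Y → σ y = τ y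
  · rw [if_pos h, if_pos (fun y hy hy' => h y hy' hy), mul_comm]
  · rw [if_neg h, if_neg (fun h' => h (fun y hy hy' => h' y hy' hy))]

end Vale.Agent.Lib.P356
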