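import Vale.Agent.Lib.P356.Lift

/-!
The local consequence of the spectral gap: the reduced density matrix on a neighbourhood of a site
stays away from the maximally mixed state.
-/

open Matrix
open scoped ComplexOrder

namespace Vale.Agent.Lib.P356

section unitary

variable {α : Type} [Fintype α] [DecidableEq α]

/-- A permutation without fixed points. -/
lemma exists_perm_no_fixed (hcard : 2 ≤ Fintype.card α) :
    ∃ p : Equiv.Perm α, ∀ i, p i ≠ i := by
  obtain ⟨m, hm⟩ : ∃ m, Fintype.card α = m + 2 := ⟨Fintype.card α - 2, by omega⟩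
  let e : α ≃ Fin (m + 2) := Fintype.equivFinOfCardEq hm
  refine ⟨e.trans ((finRotate (m + 2)).trans e.symm), fun i hi => ?_⟩
  have h1 : finRotate (m + 2) (e i) = e i := by
    have := congrArg e hi
    simpa using this
  rw [finRotate_apply] at h1
  have h2 : (1 : Fin (m + 2)) = 0 := by
    simpa using h1
  exact absurd h2 (Fin.ne_of_gt (by simp))

/-- For a Hermitian `R` on at least two levels there is a unitary `U` with `Tr (U R) = 0`. -/
lemma exists_unitary_trace_zero (hcard : 2 ≤ Fintype.card α) {R : Matrix α α ℂ}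
    (hR : R.IsHermitian) :
    ∃ U : Matrix α α ℂ, star U * U = 1 ∧ U * star U = 1 ∧ (U * R).trace = 0 := by
  obtain ⟨p, hp⟩ := exists_perm_no_fixed hcard
  set V : Matrix α α ℂ := (hR.eigenvectorUnitary : Matrix α α ℂ) with hV
  set D : Matrix α α ℂ := diagonal (RCLike.ofReal ∘ hR.eigenvalues) with hD
  have hVs : star V * V = 1 := by simp [hV]
  have hVs' : V * star V = 1 := by simp [hV]
  have hspec : R = V * D * star V := by
    have := hR.spectral_theorem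
    simpa [Unitary.conjStarAlgAut_apply, hV, hD] using this
  set P : Matrix α α ℂ := (1 : Matrix α α ℂ).submatrix p id with hP
  have hPstar : star P = (1 : Matrix α α ℂ).submatrix id p := by
    ext i j
    simp only [hP, Matrix.star_apply, Matrix.submatrix_apply, Matrix.one_apply, id]
    by_cases h : p j = i
    · simp [h, eq_comm]
    · rw [if_neg h, if_neg (fun h' => h h'.symm)]; simp
  have hPs : star P * P = 1 := by
    rw [hPstar, hP, show ((1 : Matrix α α ℂ).submatrix id p * (1 : Matrix α α ℂ).submatrix p id)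
      = ((1 : Matrix α α ℂ) * 1).submatrix id id from
        Matrix.submatrix_mul_equiv _ _ _ _ _]
    simp
  have hPs' : P * star P = 1 := by
    rw [hPstar, hP, show ((1 : Matrix α α ℂ).submatrix p id * (1 : Matrix α α ℂ).submatrix id p)
      = ((1 : Matrix α α ℂ) * 1).submatrix p p from
        Matrix.submatrix_mul_equiv _ _ _ (Equiv.refl α) _]
    simp
  refine ⟨V * P * star V, ?_, ?_, ?_⟩
  · have : star (V * P * star V) = V * star P * star V := by
      simp [star_mul, Matrix.mul_assoc]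
    rw [this]
    calc V * star P * star V * (V * P * star V)
        = V * star P * (star V * V) * P * star V := by simp only [Matrix.mul_assoc]
      _ = V * (star P * P) * star V := by rw [hVs]; simp [Matrix.mul_assoc]
      _ = 1 := by rw [hPs, Matrix.mul_one, hVs']
  · have : star (V * P * star V) = V * star P * star V := by
      simp [star_mul, Matrix.mul_assoc]
    rw [this]
    calc V * P * star V * (V * star P * star V)
        = V * P * (star V * V) * star P * star V := by simp only [Matrix.mul_assoc]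
      _ = V * (P * star P) * star V := by rw [hVs]; simp [Matrix.mul_assoc]
      _ = 1 := by rw [hPs', Matrix.mul_one, hVs']
  · have h1 : V * P * star V * R = V * (P * D) * star V := by
      rw [hspec]
      calc V * P * star V * (V * D * star V)
          = V * P * (star V * V) * D * star V := by simp only [Matrix.mul_assoc]
        _ = V * (P * D) * star V := by rw [hVs]; simp [Matrix.mul_assoc]
    rw [h1, Matrix.trace_mul_comm, ← Matrix.mul_assoc, hVs, Matrix.one_mul]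
    simp only [Matrix.trace, Matrix.diag, hD, hP, Matrix.mul_diagonal, Matrix.submatrix_apply, id]
    apply Finset.sum_eq_zero
    intro i _
    show (1 : Matrix α α ℂ) (p i) i * _ = 0
    rw [Matrix.one_apply_ne (hp i)]
    simp

end unitary

section norms

variable {κ : Type} [Fintype κ] [DecidableEq κ]

/-- Squared `ℓ²` norm as a dot product. -/
lemma nsq_eq_dot (v : κ → ℂ) : ((∑ σ, ‖v σ‖ ^ 2 : ℝ) : ℂ) = star v ⬝ᵥ v := by
  simp only [dotProduct, Pi.star_apply]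
  rw [Complex.ofReal_sum]
  apply Finset.sum_congr rfl; intro σ _
  rw [Complex.star_def, mul_comm, Complex.mul_conj, Complex.normSq_eq_norm_sq]

lemma dot_mulVec_eq (M : Matrix κ κ ℂ) (v w : κ → ℂ) :
    star (M *ᵥ v) ⬝ᵥ w = star v ⬝ᵥ (star M *ᵥ w) := by
  rw [Matrix.star_mulVec, Matrix.dotProduct_mulVec]
  rfl

/-- Isometries preserve the `ℓ²` norm. -/
lemma nsq_mulVec_of_isometry {M : Matrix κ κ ℂ} (hM : star M * M = 1) (v : κ → ℂ) :
    ∑ σ, ‖(M *ᵥ v) σ‖ ^ 2 = ∑ σ, ‖v σ‖ ^ 2 := by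
  have h : ((∑ σ, ‖(M *ᵥ v) σ‖ ^ 2 : ℝ) : ℂ) = ((∑ σ, ‖v σ‖ ^ 2 : ℝ) : ℂ) := by
    rw [nsq_eq_dot, nsq_eq_dot, dot_mulVec_eq, Matrix.mulVec_mulVec, hM, Matrix.one_mulVec]
  exact_mod_cast h

/-- The squared Hilbert-Schmidt norm is at most the squared operator norm times the dimension. -/
lemma sum_norm_sq_le_of_bound {M : Matrix κ κ ℂ} {K : ℝ}
    (hM : ∀ v : κ → ℂ, ∑ σ, ‖(M *ᵥ v) σ‖ ^ 2 ≤ K * ∑ σ, ‖v σ‖ ^ 2) :
    ∑ σ, ∑ τ, ‖M σ τ‖ ^ 2 ≤ (Fintype.card κ : ℝ) * K := by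
  rw [Finset.sum_comm]
  have : ∀ τ : κ, ∑ σ, ‖M σ τ‖ ^ 2 ≤ K := by
    intro τ
    have h := hM (Pi.single τ 1)
    have h1 : ∀ σ, (M *ᵥ (Pi.single τ 1 : κ → ℂ)) σ = M σ τ := by
      intro σ; simp
    have h2 : ∑ σ, ‖(Pi.single τ 1 : κ → ℂ) σ‖ ^ 2 = 1 := by
      rw [Finset.sum_eq_single τ]
      · simp
      · intro σ _ hσ; simp [Pi.single_eq_of_ne hσ]
      · simp
    simp_rw [h1] at h
    rw [h2, mul_one] at h
    exact h
  calc ∑ τ, ∑ σ, ‖M σ τ‖ ^ 2 ≤ ∑ _τ : κ, K := Finset.sum_le_sum fun τ _ => this τ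
    _ = (Fintype.card κ : ℝ) * K := by simp

/-- Cauchy-Schwarz for double sums of products of complex numbers. -/
lemma norm_double_sum_sq_le {α : Type} [Fintype α] (u v : α → α → ℂ) :
    ‖∑ a, ∑ a', u a a' * v a a'‖ ^ 2 ≤ (∑ a, ∑ a', ‖u a a'‖ ^ 2) * (∑ a, ∑ a', ‖v a a'‖ ^ 2) := by
  have h1 : ‖∑ a, ∑ a', u a a' * v a a'‖ ≤ ∑ p : α × α, ‖u p.1 p.2‖ * ‖v p.1 p.2‖ := by
    rw [Fintype.sum_prod_type]
    refine (norm_sum_le _ _).trans (Finset.sum_le_sum fun a _ => ?_)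
    refine (norm_sum_le _ _).trans (Finset.sum_le_sum fun a' _ => ?_)
    rw [norm_mul]
  have h2 := Finset.sum_mul_sq_le_sq_mul_sq (Finset.univ : Finset (α × α))
    (fun p => ‖u p.1 p.2‖) (fun p => ‖v p.1 p.2‖)
  simp only [Fintype.sum_prod_type] at h1 h2 ⊢
  calc ‖∑ a, ∑ a', u a a' * v a a'‖ ^ 2
      ≤ (∑ a, ∑ a', ‖u a a'‖ * ‖v a a'‖) ^ 2 := by
        apply pow_le_pow_left₀ (norm_nonneg _) h1
    _ ≤ _ := h2

end norms

section local_bound

variable {ι : Type} [Fintype ι] [DecidableEq ι] {q : ℕ}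

/-- The squared Hilbert-Schmidt distance of a matrix from the maximally mixed matrix. -/
noncomputable def devSq {α : Type} [Fintype α] [DecidableEq α] (ρ : Matrix α α ℂ) : ℝ :=
  ∑ a, ∑ a', ‖ρ a a' - (if a = a' then (((Fintype.card α : ℝ)⁻¹ : ℝ) : ℂ) else 0)‖ ^ 2

lemma devSq_nonneg {α : Type} [Fintype α] [DecidableEq α] (ρ : Matrix α α ℂ) : 0 ≤ devSq ρ := by
  unfold devSq; positivity

/-- For a traceless `g`, the pairing of `g` with `ρ` is controlled by the Hilbert-Schmidt norm of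
`g` and the Hilbert-Schmidt distance of `ρ` from the maximally mixed matrix. -/
lemma pairing_sq_le {α : Type} [Fintype α] [DecidableEq α] (g ρ : Matrix α α ℂ)
    (hg : g.trace = 0) :
    ‖∑ a, ∑ a', g a a' * ρ a' a‖ ^ 2 ≤ (∑ a, ∑ a', ‖g a a'‖ ^ 2) * devSq ρ := by
  set c : ℂ := (((Fintype.card α : ℝ)⁻¹ : ℝ) : ℂ) with hc
  have h1 : ∑ a, ∑ a', g a a' * ρ a' a =
      ∑ a, ∑ a', g a a' * (ρ a' a - (if a' = a then c else 0)) := by
    have h2 : ∑ a, ∑ a', g a a' * (if a' = a then c else 0) = c * g.trace := by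
      simp only [mul_ite, mul_zero, Finset.sum_ite_eq', Finset.mem_univ, if_true, Matrix.trace,
        Matrix.diag, Finset.mul_sum]
      apply Finset.sum_congr rfl; intro a _; ring
    rw [hg, mul_zero] at h2
    simp_rw [mul_sub, Finset.sum_sub_distrib]
    rw [h2, sub_zero]
  rw [h1]
  refine (norm_double_sum_sq_le _ _).trans ?_
  apply mul_le_mul_of_nonneg_left _ (by positivity)
  rw [devSq, Finset.sum_comm]

/-- The main local inequality: the gap forces the reduced density matrix on a neighbourhood of a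
site to be away from the maximally mixed matrix. -/
theorem local_gap_bound (𝒳 : Finset (Finset ι)) (h : Finset ι → Matrix (ι → Fin q) (ι → Fin q) ℂ)
    {J Δ E₀ : ℝ} {Ω : (ι → Fin q) → ℂ} (hq : 2 ≤ q) (hΔ : 0 < Δ)
    (hacts : ∀ X ∈ 𝒳, ActsOn X (h X))
    (hnorm : ∀ X ∈ 𝒳, ∀ v : (ι → Fin q) → ℂ, ∑ σ, ‖(h X *ᵥ v) σ‖ ^ 2 ≤ J ^ 2 * ∑ σ, ‖v σ‖ ^ 2)
    (hgs : IsGappedGroundState (∑ X ∈ 𝒳, h X) Δ E₀ Ω)
    (x : ι) (N : Finset ι) (hxN : x ∈ N) (hN : ∀ X ∈ 𝒳, x ∈ X → X ⊆ N) :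
    Δ ^ 2 ≤ ((𝒳.filter (fun X => x ∈ X)).card : ℝ) ^ 2 *
      (4 * J ^ 2 * (Fintype.card (N → Fin q) : ℝ) * devSq (reduced N Ω)) := by
  classical
  have hΩ := hgs.unit
  -- the site unitary
  have hR : (reduced ({x} : Finset ι) Ω).IsHermitian := (reduced_posSemidef _ Ω).isHermitian
  have hcard : 2 ≤ Fintype.card (↥({x} : Finset ι) → Fin q) := by
    rw [card_cfg]; simpa using hq
  obtain ⟨U, hU1, hU2, hU3⟩ := exists_unitary_trace_zero hcard hR
  set W : Matrix (ι → Fin q) (ι → Fin q) ℂ := lift {x} U with hW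
  have hW1 : star W * W = 1 := by
    rw [hW, lift_star, lift_mul, hU1, lift_one]
  have hW2 : W * star W = 1 := by
    rw [hW, lift_star, lift_mul, hU2, lift_one]
  have hWacts : ActsOn {x} W := actsOn_lift _ _
  have hzero : star Ω ⬝ᵥ (W *ᵥ Ω) = 0 := by
    rw [hW, expectation_lift, ← hU3]
    simp only [Matrix.trace, Matrix.diag, Matrix.mul_apply]
  -- the test vector
  set v : (ι → Fin q) → ℂ := W *ᵥ Ω with hv
  have hvnorm : ∑ σ, ‖v σ‖ ^ 2 = 1 := by
    rw [hv, nsq_mulVec_of_isometry hW1, hΩ]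
  have hgap := hgs.gap v
  rw [hvnorm, hzero] at hgap
  simp only [norm_zero, ne_eq, OfNat.ofNat_ne_zero, not_false_eq_true, zero_pow, sub_zero, mul_one]
    at hgap
  -- the energy of the ground state
  set H : Matrix (ι → Fin q) (ι → Fin q) ℂ := ∑ X ∈ 𝒳, h X with hH
  have hE : star Ω ⬝ᵥ (H *ᵥ Ω) = (E₀ : ℂ) := by
    rw [hgs.eigen, dotProduct_smul, ← nsq_eq_dot, hΩ]
    simp
  have hEv : star v ⬝ᵥ (H *ᵥ v) = star Ω ⬝ᵥ ((star W * H * W) *ᵥ Ω) := by
    rw [hv, dot_mulVec_eq, Matrix.mulVec_mulVec, Matrix.mulVec_mulVec]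
  -- the difference operators
  set G : Finset ι → Matrix (ι → Fin q) (ι → Fin q) ℂ := fun X => star W * h X * W - h X with hG
  have hsumG : star W * H * W - H = ∑ X ∈ 𝒳, G X := by
    rw [hH, Finset.mul_sum, Finset.sum_mul, Finset.sum_sub_distrib]
  have hE2 : Δ ≤ (star Ω ⬝ᵥ ((∑ X ∈ 𝒳, G X) *ᵥ Ω)).re := by
    rw [← hsumG, Matrix.sub_mulVec, dotProduct_sub, Complex.sub_re, hE, Complex.ofReal_re, ← hEv]
    exact hgap
  have hE3 : (star Ω ⬝ᵥ ((∑ X ∈ 𝒳, G X) *ᵥ Ω)).re =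
      ∑ X ∈ 𝒳, (star Ω ⬝ᵥ (G X *ᵥ Ω)).re := by
    have : (∑ X ∈ 𝒳, G X) *ᵥ Ω = ∑ X ∈ 𝒳, (G X *ᵥ Ω) := by
      funext σ
      simp [Matrix.mulVec, dotProduct, Matrix.sum_apply, Finset.sum_apply, Finset.sum_mul]
      rw [Finset.sum_comm]
    rw [this, dotProduct_sum, Complex.re_sum]
  rw [hE3] at hE2
  -- terms not touching the site vanish
  have hGzero : ∀ X ∈ 𝒳, x ∉ X → G X = 0 := by
    intro X hX hxX
    have hd : Disjoint ({x} : Finset ι) X := by simpa using hxX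
    have hcomm := hWacts.commute hd (hacts X hX)
    simp only [hG]
    rw [Matrix.mul_assoc, ← hcomm, ← Matrix.mul_assoc, hW1, Matrix.one_mul, sub_self]
  -- the Hilbert-Schmidt bound
  have hisoStar : star (star W) * star W = 1 := by rw [star_star]; exact hW2
  have hGnorm : ∀ X ∈ 𝒳, ∀ u : (ι → Fin q) → ℂ,
      ∑ σ, ‖(G X *ᵥ u) σ‖ ^ 2 ≤ (4 * J ^ 2) * ∑ σ, ‖u σ‖ ^ 2 := by
    intro X hX u
    have h1 : ∑ σ, ‖((star W * h X * W) *ᵥ u) σ‖ ^ 2 ≤ J ^ 2 * ∑ σ, ‖u σ‖ ^ 2 := by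
      rw [← Matrix.mulVec_mulVec, ← Matrix.mulVec_mulVec, nsq_mulVec_of_isometry hisoStar]
      have := hnorm X hX (W *ᵥ u)
      rwa [nsq_mulVec_of_isometry hW1] at this
    have h2 := hnorm X hX u
    have h3 : ∀ σ, ‖(G X *ᵥ u) σ‖ ^ 2 ≤
        2 * ‖((star W * h X * W) *ᵥ u) σ‖ ^ 2 + 2 * ‖(h X *ᵥ u) σ‖ ^ 2 := by
      intro σ
      simp only [hG, Matrix.sub_mulVec, Pi.sub_apply]
      have := norm_sub_le (((star W * h X * W) *ᵥ u) σ) ((h X *ᵥ u) σ)
      have h4 := sq_nonneg (‖((star W * h X * W) *ᵥ u) σ‖ - ‖(h X *ᵥ u) σ‖)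
      have h5 := norm_nonneg (((star W * h X * W) *ᵥ u) σ - (h X *ᵥ u) σ)
      nlinarith
    calc ∑ σ, ‖(G X *ᵥ u) σ‖ ^ 2
        ≤ ∑ σ, (2 * ‖((star W * h X * W) *ᵥ u) σ‖ ^ 2 + 2 * ‖(h X *ᵥ u) σ‖ ^ 2) :=
          Finset.sum_le_sum fun σ _ => h3 σ
      _ = 2 * ∑ σ, ‖((star W * h X * W) *ᵥ u) σ‖ ^ 2 + 2 * ∑ σ, ‖(h X *ᵥ u) σ‖ ^ 2 := by
          rw [Finset.sum_add_distrib, Finset.mul_sum, Finset.mul_sum]
      _ ≤ 2 * (J ^ 2 * ∑ σ, ‖u σ‖ ^ 2) + 2 * (J ^ 2 * ∑ σ, ‖u σ‖ ^ 2) := by linarith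
      _ = (4 * J ^ 2) * ∑ σ, ‖u σ‖ ^ 2 := by ring
  set D : ℝ := (Fintype.card (N → Fin q) : ℝ) with hD
  set B : ℝ := Real.sqrt (4 * J ^ 2 * D * devSq (reduced N Ω)) with hB
  have hBnn : 0 ≤ B := Real.sqrt_nonneg _
  have hD0 : 0 ≤ D := by rw [hD]; positivity
  have hBsq : B ^ 2 = 4 * J ^ 2 * D * devSq (reduced N Ω) := by
    rw [hB, Real.sq_sqrt]
    have := devSq_nonneg (reduced N Ω)
    positivity
  have hterm : ∀ X ∈ 𝒳, x ∈ X → (star Ω ⬝ᵥ (G X *ᵥ Ω)).re ≤ B := by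
    intro X hX hxX
    have hXN := hN X hX hxX
    have hact : ActsOn N (G X) := by
      have hW' : ActsOn N W := hWacts.mono (by simpa using hxN)
      exact ((hW'.star.mul ((hacts X hX).mono hXN)).mul hW').sub ((hacts X hX).mono hXN)
    obtain ⟨g, hg⟩ := actsOn_iff.mp hact
    have hcardpos : (0 : ℝ) < Fintype.card ({y // y ∉ N} → Fin q) := by
      have : Nonempty (Fin q) := ⟨⟨0, by omega⟩⟩
      exact_mod_cast Fintype.card_pos
    -- tracelessness
    have htr : g.trace = 0 := by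
      have h1 : (G X).trace = 0 := by
        simp only [hG, Matrix.trace_sub]
        rw [Matrix.trace_mul_comm, ← Matrix.mul_assoc, hW2, Matrix.one_mul, sub_self]
      rw [hg, trace_lift] at h1
      have h2 : (Fintype.card ({y // y ∉ N} → Fin q) : ℂ) ≠ 0 := by
        have := hcardpos.ne'
        exact_mod_cast this
      exact (mul_eq_zero.mp h1).resolve_left h2
    -- the Hilbert-Schmidt norm of g
    have hgHS : ∑ a, ∑ a', ‖g a a'‖ ^ 2 ≤ D * (4 * J ^ 2) := by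
      have h1 := sum_norm_sq_le_of_bound (hGnorm X hX)
      rw [hg, sum_norm_sq_lift, Fintype.card_congr (glueEquiv (q := q) N).symm,
        Fintype.card_prod] at h1
      push_cast at h1
      have h2 : (Fintype.card ({y // y ∉ N} → Fin q) : ℝ) * (∑ a, ∑ a', ‖g a a'‖ ^ 2) ≤
          (Fintype.card ({y // y ∉ N} → Fin q) : ℝ) * (D * (4 * J ^ 2)) := by
        rw [hD]
        calc _ ≤ _ := h1
          _ = _ := by ring
      exact le_of_mul_le_mul_left h2 hcardpos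
    have hz : star Ω ⬝ᵥ (G X *ᵥ Ω) = ∑ a, ∑ a', g a a' * reduced N Ω a' a := by
      rw [hg, expectation_lift]
    have hzsq := pairing_sq_le g (reduced N Ω) htr
    rw [← hz] at hzsq
    have hre : |(star Ω ⬝ᵥ (G X *ᵥ Ω)).re| ≤ ‖star Ω ⬝ᵥ (G X *ᵥ Ω)‖ := Complex.abs_re_le_norm _
    refine (le_abs_self _).trans (hre.trans ?_)
    rw [hB]
    apply Real.le_sqrt_of_sq_le
    refine hzsq.trans ?_
    have := devSq_nonneg (reduced N Ω)
    calc (∑ a, ∑ a', ‖g a a'‖ ^ 2) * devSq (reduced N Ω)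
        ≤ (D * (4 * J ^ 2)) * devSq (reduced N Ω) := mul_le_mul_of_nonneg_right hgHS this
      _ = 4 * J ^ 2 * D * devSq (reduced N Ω) := by ring
  -- summation
  have hfinal : Δ ≤ ((𝒳.filter (fun X => x ∈ X)).card : ℝ) * B := by
    have h1 : ∑ X ∈ 𝒳, (star Ω ⬝ᵥ (G X *ᵥ Ω)).re =
        ∑ X ∈ 𝒳.filter (fun X => x ∈ X), (star Ω ⬝ᵥ (G X *ᵥ Ω)).re := by
      rw [Finset.sum_filter]
      apply Finset.sum_congr rfl
      intro X hX
      by_cases hxX : x ∈ X
      · rw [if_pos hxX]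
      · rw [if_neg hxX, hGzero X hX hxX]; simp
    rw [h1] at hE2
    refine hE2.trans ?_
    calc ∑ X ∈ 𝒳.filter (fun X => x ∈ X), (star Ω ⬝ᵥ (G X *ᵥ Ω)).re
        ≤ ∑ _X ∈ 𝒳.filter (fun X => x ∈ X), B := by
          apply Finset.sum_le_sum
          intro X hX
          rw [Finset.mem_filter] at hX
          exact hterm X hX.1 hX.2
      _ = _ := by simp
  calc Δ ^ 2 ≤ (((𝒳.filter (fun X => x ∈ X)).card : ℝ) * B) ^ 2 :=
        pow_le_pow_left₀ hΔ.le hfinal 2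
    _ = _ := by rw [mul_pow, hBsq]

end local_bound

end Vale.Agent.Lib.P356
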