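import Vale.Agent.Lib.P356.Subadd

/-!
Reduced density matrices: positivity, trace, invariance of the entropy under relabelling,
subadditivity for disjoint sets of sites, equality of the entropies of a set and its complement.
-/

open Matrix
open scoped ComplexOrder

namespace Vale.Agent.Lib.P356

section invariance

variable {α β : Type} [Fintype α] [DecidableEq α] [Fintype β] [DecidableEq β]

lemma sum_eig_eq_roots (f : ℝ → ℝ) {A : Matrix α α ℂ} (h : A.IsHermitian) :
    ∑ i, f (h.eigenvalues i) = ((A.charpoly.roots).map (fun z => f z.re)).sum := by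
  rw [h.roots_charpoly_eq_eigenvalues]
  simp [Multiset.map_map]

/-- The entropy only depends on the characteristic polynomial. -/
lemma entropy_eq_of_charpoly_eq {A : Matrix α α ℂ} {B : Matrix β β ℂ} (hA : A.IsHermitian)
    (hB : B.IsHermitian) (h : A.charpoly = B.charpoly) : entropy A = entropy B := by
  rw [entropy_eq hA, entropy_eq hB, sum_eig_eq_roots _ hA, sum_eig_eq_roots _ hB, h]

lemma entropy_submatrix {A : Matrix α α ℂ} (hA : A.IsHermitian) (e : β ≃ α) :
    entropy (A.submatrix e e) = entropy A := by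
  apply entropy_eq_of_charpoly_eq (hA.submatrix e) hA
  have := Matrix.charpoly_reindex e.symm A
  simpa [Matrix.reindex_apply] using this

/-- Schmidt symmetry: `M Mᴴ` and `Mᵀ (Mᵀ)ᴴ` have the same entropy. -/
lemma entropy_swap (M : Matrix α β ℂ) :
    entropy (M * Mᴴ) = entropy (Mᵀ * (Mᵀ)ᴴ) := by
  have h1 : (M * Mᴴ).IsHermitian := (posSemidef_self_mul_conjTranspose M).isHermitian
  have h2 : (Mᵀ * (Mᵀ)ᴴ).IsHermitian := (posSemidef_self_mul_conjTranspose Mᵀ).isHermitian
  have h3 : (Mᴴ * M).charpoly = (Mᵀ * (Mᵀ)ᴴ).charpoly := by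
    have : Mᵀ * (Mᵀ)ᴴ = (Mᴴ * M)ᵀ := by
      rw [Matrix.transpose_mul]
      congr 1
    rw [this, Matrix.charpoly_transpose]
  rw [entropy_eq h1, entropy_eq h2, sum_eig_eq_roots _ h1, sum_eig_eq_roots _ h2, ← h3]
  have h4 := Matrix.charpoly_mul_comm' M Mᴴ
  have hne : ∀ {γ : Type} [Fintype γ] [DecidableEq γ] (A : Matrix γ γ ℂ) (n : ℕ),
      (((Polynomial.X : Polynomial ℂ) ^ n * A.charpoly).roots.map
        (fun z : ℂ => Real.negMulLog z.re)).sum =
      ((A.charpoly.roots).map (fun z : ℂ => Real.negMulLog z.re)).sum := by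
    intro γ _ _ A n
    have hp : (A.charpoly) ≠ 0 := (Matrix.charpoly_monic A).ne_zero
    have hx : ((Polynomial.X : Polynomial ℂ) ^ n) ≠ 0 := pow_ne_zero _ Polynomial.X_ne_zero
    rw [Polynomial.roots_mul (mul_ne_zero hx hp), Polynomial.roots_pow, Polynomial.roots_X,
      Multiset.map_add, Multiset.sum_add, Multiset.map_nsmul, Multiset.sum_nsmul]
    simp
  rw [← hne (M * Mᴴ) (Fintype.card β), h4, hne (Mᴴ * M) (Fintype.card α)]

end invariance

section reduced

variable {ι : Type} [Fintype ι] [DecidableEq ι] {q : ℕ}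

/-- Gluing configurations is a bijection. -/
def glueEquiv (A : Finset ι) :
    ((A → Fin q) × ({x // x ∉ A} → Fin q)) ≃ (ι → Fin q) where
  toFun p := glue A p.1 p.2
  invFun σ := (fun x => σ x, fun x => σ x)
  left_inv p := by
    ext x
    · simp [glue, x.2]
    · simp [glue, x.2]
  right_inv σ := by
    funext x
    by_cases hx : x ∈ A <;> simp [glue, hx]

lemma sum_glue (A : Finset ι) (F : (ι → Fin q) → ℂ) :
    ∑ a : A → Fin q, ∑ b : {x // x ∉ A} → Fin q, F (glue A a b) = ∑ σ, F σ := by
  rw [← Fintype.sum_prod_type' (f := fun a b => F (glue A a b))]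
  exact Equiv.sum_comp (glueEquiv A) F

lemma sum_glue_real (A : Finset ι) (F : (ι → Fin q) → ℝ) :
    ∑ a : A → Fin q, ∑ b : {x // x ∉ A} → Fin q, F (glue A a b) = ∑ σ, F σ := by
  rw [← Fintype.sum_prod_type' (f := fun a b => F (glue A a b))]
  exact Equiv.sum_comp (glueEquiv A) F

@[simp] lemma glue_apply_mem (A : Finset ι) (a : A → Fin q) (b : {x // x ∉ A} → Fin q) (x : A) :
    glue A a b x = a x := by
  simp [glue, x.2]

@[simp] lemma glue_apply_not_mem (A : Finset ι) (a : A → Fin q) (b : {x // x ∉ A} → Fin q)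
    (x : {x // x ∉ A}) : glue A a b x = b x := by
  simp [glue, x.2]

/-- The coefficient matrix of `Ω` across the cut `A | Aᶜ`. -/
def coeffMatrix (A : Finset ι) (Ω : (ι → Fin q) → ℂ) :
    Matrix (A → Fin q) ({x // x ∉ A} → Fin q) ℂ :=
  Matrix.of fun a b => Ω (glue A a b)

lemma reduced_eq_mul (A : Finset ι) (Ω : (ι → Fin q) → ℂ) :
    reduced A Ω = coeffMatrix A Ω * (coeffMatrix A Ω)ᴴ := by
  ext a a'
  simp [reduced, coeffMatrix, Matrix.mul_apply]

lemma reduced_posSemidef (A : Finset ι) (Ω : (ι → Fin q) → ℂ) : (reduced A Ω).PosSemidef := by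
  rw [reduced_eq_mul]
  exact posSemidef_self_mul_conjTranspose _

lemma reduced_trace (A : Finset ι) (Ω : (ι → Fin q) → ℂ) :
    (reduced A Ω).trace = ((∑ σ, ‖Ω σ‖ ^ 2 : ℝ) : ℂ) := by
  simp only [Matrix.trace, Matrix.diag, reduced, Matrix.of_apply]
  rw [Complex.ofReal_sum, ← sum_glue A]
  apply Finset.sum_congr rfl; intro a _
  apply Finset.sum_congr rfl; intro b _
  rw [Complex.star_def, Complex.mul_conj, Complex.normSq_eq_norm_sq]

lemma reduced_trace_one {A : Finset ι} {Ω : (ι → Fin q) → ℂ} (h : ∑ σ, ‖Ω σ‖ ^ 2 = 1) :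
    (reduced A Ω).trace = 1 := by
  rw [reduced_trace, h]; simp

/-- A configuration on the union from configurations on two disjoint sets. -/
def join {B C : Finset ι} (b : B → Fin q) (c : C → Fin q) : (↥(B ∪ C) → Fin q) :=
  fun x => if h : x.1 ∈ B then b ⟨x.1, h⟩ else
    c ⟨x.1, by have := x.2; simp only [Finset.mem_union] at this; tauto⟩

/-- Configurations on a disjoint union split. -/
def joinEquiv {B C : Finset ι} (hd : Disjoint B C) :
    ((B → Fin q) × (C → Fin q)) ≃ (↥(B ∪ C) → Fin q) where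
  toFun p := join p.1 p.2
  invFun σ := (fun x => σ ⟨x.1, Finset.mem_union_left _ x.2⟩,
    fun x => σ ⟨x.1, Finset.mem_union_right _ x.2⟩)
  left_inv p := by
    ext x
    · simp [join, x.2]
    · have : x.1 ∉ B := fun h => (Finset.disjoint_left.mp hd) h x.2
      simp [join, this]
  right_inv σ := by
    funext x
    by_cases hx : x.1 ∈ B <;> simp [join, hx]

/-- Configurations off `B` split into configurations on `C` and configurations off `B ∪ C`. -/
def offEquivLeft {B C : Finset ι} (hd : Disjoint B C) :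
    ((C → Fin q) × ({x // x ∉ B ∪ C} → Fin q)) ≃ ({x // x ∉ B} → Fin q) where
  toFun p := fun x => if h : x.1 ∈ C then p.1 ⟨x.1, h⟩ else
    p.2 ⟨x.1, by simp only [Finset.mem_union, not_or]; exact ⟨x.2, h⟩⟩
  invFun f := (fun x => f ⟨x.1, fun h => (Finset.disjoint_left.mp hd) h x.2⟩,
    fun x => f ⟨x.1, fun h => x.2 (Finset.mem_union_left _ h)⟩)
  left_inv p := by
    ext x
    · simp [x.2]
    · have : x.1 ∉ C := fun h => x.2 (Finset.mem_union_right _ h)
      simp [this]
  right_inv f := by
    funext x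
    by_cases hx : x.1 ∈ C <;> simp [hx]

lemma glue_join_left {B C : Finset ι} (hd : Disjoint B C) (b : B → Fin q) (c : C → Fin q)
    (d : {x // x ∉ B ∪ C} → Fin q) :
    glue (B ∪ C) (join b c) d = glue B b (offEquivLeft hd (c, d)) := by
  funext x
  by_cases hB : x ∈ B
  · simp [glue, join, hB]
  · by_cases hC : x ∈ C
    · simp [glue, join, hB, hC, offEquivLeft]
    · simp [glue, hB, hC, offEquivLeft]

lemma reduced_marginal_left {B C : Finset ι} (hd : Disjoint B C) (Ω : (ι → Fin q) → ℂ)
    (b b' : B → Fin q) :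
    reduced B Ω b b' = ∑ c : C → Fin q, reduced (B ∪ C) Ω (join b c) (join b' c) := by
  simp only [reduced, Matrix.of_apply]
  rw [← Equiv.sum_comp (offEquivLeft hd), Fintype.sum_prod_type]
  apply Finset.sum_congr rfl; intro c _
  apply Finset.sum_congr rfl; intro d _
  rw [glue_join_left hd, glue_join_left hd]

lemma join_comm {B C : Finset ι} (hd : Disjoint B C) (b : B → Fin q) (c : C → Fin q)
    (x : ↥(B ∪ C)) :
    join b c x = join (B := C) (C := B) c b ⟨x.1, by
      have := x.2; simp only [Finset.mem_union] at this ⊢; tauto⟩ := by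
  by_cases hB : x.1 ∈ B
  · have hC : x.1 ∉ C := fun h => (Finset.disjoint_left.mp hd) hB h
    simp [join, hB, hC]
  · have hC : x.1 ∈ C := by have := x.2; simp only [Finset.mem_union] at this; tauto
    simp [join, hB, hC]

/-- Configurations off `C` split into configurations on `B` and configurations off `B ∪ C`. -/
def offEquivRight {B C : Finset ι} (hd : Disjoint B C) :
    ((B → Fin q) × ({x // x ∉ B ∪ C} → Fin q)) ≃ ({x // x ∉ C} → Fin q) where
  toFun p := fun x => if h : x.1 ∈ B then p.1 ⟨x.1, h⟩ else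
    p.2 ⟨x.1, by simp only [Finset.mem_union, not_or]; exact ⟨h, x.2⟩⟩
  invFun f := (fun x => f ⟨x.1, fun h => (Finset.disjoint_left.mp hd) x.2 h⟩,
    fun x => f ⟨x.1, fun h => x.2 (Finset.mem_union_right _ h)⟩)
  left_inv p := by
    ext x
    · simp [x.2]
    · have : x.1 ∉ B := fun h => x.2 (Finset.mem_union_left _ h)
      simp [this]
  right_inv f := by
    funext x
    by_cases hx : x.1 ∈ B <;> simp [hx]

lemma glue_join_right {B C : Finset ι} (hd : Disjoint B C) (b : B → Fin q) (c : C → Fin q)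
    (d : {x // x ∉ B ∪ C} → Fin q) :
    glue (B ∪ C) (join b c) d = glue C c (offEquivRight hd (b, d)) := by
  funext x
  by_cases hC : x ∈ C
  · have hB : x ∉ B := fun h => (Finset.disjoint_left.mp hd) h hC
    simp [glue, join, hB, hC]
  · by_cases hB : x ∈ B
    · simp [glue, join, hB, hC, offEquivRight]
    · simp [glue, hB, hC, offEquivRight]

lemma reduced_marginal_right {B C : Finset ι} (hd : Disjoint B C) (Ω : (ι → Fin q) → ℂ)
    (c c' : C → Fin q) :
    reduced C Ω c c' = ∑ b : B → Fin q, reduced (B ∪ C) Ω (join b c) (join b c') := by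
  simp only [reduced, Matrix.of_apply]
  rw [← Equiv.sum_comp (offEquivRight hd), Fintype.sum_prod_type]
  apply Finset.sum_congr rfl; intro b _
  apply Finset.sum_congr rfl; intro d _
  rw [glue_join_right hd, glue_join_right hd]

/-- Subadditivity of the entropy of reduced density matrices. -/
theorem entropy_reduced_union_le {B C : Finset ι} (hd : Disjoint B C) {Ω : (ι → Fin q) → ℂ}
    (hΩ : ∑ σ, ‖Ω σ‖ ^ 2 = 1) :
    entropy (reduced (B ∪ C) Ω) ≤ entropy (reduced B Ω) + entropy (reduced C Ω) := by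
  have hU := reduced_posSemidef (B ∪ C) Ω
  set e := joinEquiv (q := q) hd with he
  have hρ' : ((reduced (B ∪ C) Ω).submatrix e e).PosSemidef := hU.submatrix e
  have htr' : ((reduced (B ∪ C) Ω).submatrix e e).trace = 1 := by
    have h1 := reduced_trace_one (A := B ∪ C) hΩ
    rw [← h1]
    simp only [Matrix.trace, Matrix.diag, Matrix.submatrix_apply]
    exact Equiv.sum_comp e (fun x => reduced (B ∪ C) Ω x x)
  rw [← entropy_submatrix hU.isHermitian e]
  apply entropy_subadditive hρ' htr' (reduced_posSemidef B Ω) (reduced_posSemidef C Ω)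
  · intro b b'
    rw [reduced_marginal_left hd Ω b b']
    rfl
  · intro c c'
    rw [reduced_marginal_right hd Ω c c']
    rfl

lemma card_cfg (A : Finset ι) : Fintype.card (A → Fin q) = q ^ A.card := by
  simp

/-- The entropy on `A` is at most `|A| log q`. -/
theorem entropy_reduced_le {A : Finset ι} {Ω : (ι → Fin q) → ℂ}
    (hΩ : ∑ σ, ‖Ω σ‖ ^ 2 = 1) :
    entropy (reduced A Ω) ≤ A.card * Real.log q := by
  have := entropy_le_log_card (reduced_posSemidef A Ω) (reduced_trace_one hΩ)
  rw [card_cfg A] at this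
  push_cast at this
  rwa [Real.log_pow] at this

end reduced

end Vale.Agent.Lib.P356
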