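import Vale.Agent.Lib.P356.Entropy

/-!
Subadditivity of the von Neumann entropy, proved from the spectral theorem and the
inequality `u log (u / v) ≥ u - v`.
-/

open Matrix
open scoped ComplexOrder Kronecker

namespace Vale.Agent.Lib.P356

variable {α β : Type} [Fintype α] [DecidableEq α] [Fintype β] [DecidableEq β]

lemma sum_diag_kron_left (V1 : Matrix α α ℂ) (V2 : Matrix β β ℂ) (hV2 : V2 * star V2 = 1)
    (ρ : Matrix (α × β) (α × β) ℂ) (ρ1 : Matrix α α ℂ)
    (hm1 : ∀ a a', ρ1 a a' = ∑ b, ρ (a, b) (a', b)) (a : α) :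
    ∑ b, (star (V1 ⊗ₖ V2) * ρ * (V1 ⊗ₖ V2)) (a, b) (a, b) = (star V1 * ρ1 * V1) a a := by
  have hδ : ∀ b1 b2, ∑ b, star (V2 b1 b) * V2 b2 b = if b1 = b2 then 1 else 0 := by
    intro b1 b2
    have := congrFun (congrFun hV2 b2) b1
    simp only [Matrix.mul_apply, Matrix.star_apply, Matrix.one_apply] at this
    rw [show (∑ b, star (V2 b1 b) * V2 b2 b) = ∑ b, V2 b2 b * star (V2 b1 b) from
      Finset.sum_congr rfl (fun _ _ => mul_comm _ _), this]
    simp [eq_comm]
  have hL : ∀ b, (star (V1 ⊗ₖ V2) * ρ * (V1 ⊗ₖ V2)) (a, b) (a, b) =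
      ∑ y : α × β, ∑ z : α × β, star (V1 z.1 a) * V1 y.1 a * ρ z y *
        (star (V2 z.2 b) * V2 y.2 b) := by
    intro b
    simp only [Matrix.mul_apply, Matrix.star_apply, Matrix.kroneckerMap_apply, Finset.sum_mul]
    apply Finset.sum_congr rfl; intro y _
    apply Finset.sum_congr rfl; intro z _
    simp only [star_mul']
    ring
  simp_rw [hL]
  rw [Finset.sum_comm]
  simp_rw [fun y => Finset.sum_comm (s := (Finset.univ : Finset β)) (t := (Finset.univ : Finset (α × β)))
    (f := fun b z => star (V1 z.1 a) * V1 y.1 a * ρ z y * (star (V2 z.2 b) * V2 y.2 b))]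
  simp_rw [← Finset.mul_sum, hδ]
  simp only [Matrix.mul_apply, Matrix.star_apply, hm1, Fintype.sum_prod_type]
  apply Finset.sum_congr rfl; intro x _
  rw [Finset.sum_comm, Finset.sum_mul]
  apply Finset.sum_congr rfl; intro j _
  rw [Finset.mul_sum, Finset.sum_mul]
  apply Finset.sum_congr rfl; intro b _
  rw [Finset.sum_eq_single b]
  · simp only [if_true, mul_one]; ring
  · intro c _ hc
    simp [hc]
  · simp

/-- The same with the roles of the two factors exchanged. -/
lemma sum_diag_kron_right (V1 : Matrix α α ℂ) (V2 : Matrix β β ℂ) (hV1 : V1 * star V1 = 1)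
    (ρ : Matrix (α × β) (α × β) ℂ) (ρ2 : Matrix β β ℂ)
    (hm2 : ∀ b b', ρ2 b b' = ∑ a, ρ (a, b) (a, b')) (b : β) :
    ∑ a, (star (V1 ⊗ₖ V2) * ρ * (V1 ⊗ₖ V2)) (a, b) (a, b) = (star V2 * ρ2 * V2) b b := by
  have hδ : ∀ a1 a2, ∑ a, star (V1 a1 a) * V1 a2 a = if a1 = a2 then 1 else 0 := by
    intro a1 a2
    have := congrFun (congrFun hV1 a2) a1
    simp only [Matrix.mul_apply, Matrix.star_apply, Matrix.one_apply] at this
    rw [show (∑ a, star (V1 a1 a) * V1 a2 a) = ∑ a, V1 a2 a * star (V1 a1 a) from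
      Finset.sum_congr rfl (fun _ _ => mul_comm _ _), this]
    simp [eq_comm]
  have hL : ∀ a, (star (V1 ⊗ₖ V2) * ρ * (V1 ⊗ₖ V2)) (a, b) (a, b) =
      ∑ y : α × β, ∑ z : α × β, star (V2 z.2 b) * V2 y.2 b * ρ z y *
        (star (V1 z.1 a) * V1 y.1 a) := by
    intro a
    simp only [Matrix.mul_apply, Matrix.star_apply, Matrix.kroneckerMap_apply, Finset.sum_mul]
    apply Finset.sum_congr rfl; intro y _
    apply Finset.sum_congr rfl; intro z _
    simp only [star_mul']
    ring
  simp_rw [hL]
  rw [Finset.sum_comm]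
  simp_rw [fun y => Finset.sum_comm (s := (Finset.univ : Finset α)) (t := (Finset.univ : Finset (α × β)))
    (f := fun a z => star (V2 z.2 b) * V2 y.2 b * ρ z y * (star (V1 z.1 a) * V1 y.1 a))]
  simp_rw [← Finset.mul_sum, hδ]
  simp only [Matrix.mul_apply, Matrix.star_apply, hm2, Fintype.sum_prod_type]
  rw [Finset.sum_comm]
  apply Finset.sum_congr rfl; intro x _
  rw [Finset.sum_mul]
  rw [Finset.sum_congr rfl (fun a1 _ => Finset.sum_comm)]
  rw [Finset.sum_comm]
  apply Finset.sum_congr rfl; intro j _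
  rw [Finset.mul_sum, Finset.sum_mul]
  apply Finset.sum_congr rfl; intro a _
  rw [Finset.sum_eq_single a]
  · simp only [if_true, mul_one]; ring
  · intro c _ hc
    simp [hc]
  · simp

theorem entropy_subadditive {ρ : Matrix (α × β) (α × β) ℂ} {ρ1 : Matrix α α ℂ} {ρ2 : Matrix β β ℂ}
    (hρ : ρ.PosSemidef) (htr : ρ.trace = 1) (h1 : ρ1.PosSemidef) (h2 : ρ2.PosSemidef)
    (hm1 : ∀ a a', ρ1 a a' = ∑ b, ρ (a, b) (a', b))
    (hm2 : ∀ b b', ρ2 b b' = ∑ a, ρ (a, b) (a, b')) :
    entropy ρ ≤ entropy ρ1 + entropy ρ2 := by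
  have hH := hρ.isHermitian
  have hH1 := h1.isHermitian
  have hH2 := h2.isHermitian
  rw [entropy_eq hH, entropy_eq hH1, entropy_eq hH2]
  -- traces of the marginals
  have htr1 : ρ1.trace = 1 := by
    rw [← htr]
    simp only [Matrix.trace, Matrix.diag, hm1, Fintype.sum_prod_type]
  have htr2 : ρ2.trace = 1 := by
    rw [← htr]
    simp only [Matrix.trace, Matrix.diag, hm2, Fintype.sum_prod_type]
    rw [Finset.sum_comm]
  set l := hH.eigenvalues with hl
  set s := hH1.eigenvalues with hs
  set t := hH2.eigenvalues with ht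
  have hl0 : ∀ i, 0 ≤ l i := fun i => hρ.eigenvalues_nonneg i
  have hs0 : ∀ i, 0 ≤ s i := fun i => h1.eigenvalues_nonneg i
  have ht0 : ∀ i, 0 ≤ t i := fun i => h2.eigenvalues_nonneg i
  have hl1 : ∑ i, l i = 1 := sum_eigenvalues_eq_one hH htr
  have hs1 : ∑ i, s i = 1 := sum_eigenvalues_eq_one hH1 htr1
  have ht1 : ∑ i, t i = 1 := sum_eigenvalues_eq_one hH2 htr2
  -- the unitaries
  set W : Matrix (α × β) (α × β) ℂ := (hH.eigenvectorUnitary : Matrix (α × β) (α × β) ℂ) with hW
  set V1 : Matrix α α ℂ := (hH1.eigenvectorUnitary : Matrix α α ℂ) with hV1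
  set V2 : Matrix β β ℂ := (hH2.eigenvectorUnitary : Matrix β β ℂ) with hV2
  have hWs : star W * W = 1 := by simp [hW]
  have hWs' : W * star W = 1 := by simp [hW]
  have hV1s : star V1 * V1 = 1 := by simp [hV1]
  have hV1s' : V1 * star V1 = 1 := by simp [hV1]
  have hV2s : star V2 * V2 = 1 := by simp [hV2]
  have hV2s' : V2 * star V2 = 1 := by simp [hV2]
  set T : Matrix (α × β) (α × β) ℂ := V1 ⊗ₖ V2 with hT
  have hTstar : star T = star V1 ⊗ₖ star V2 := by
    simp [hT, Matrix.star_eq_conjTranspose, Matrix.conjTranspose_kronecker]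
  have hTs : star T * T = 1 := by
    rw [hTstar, hT, ← Matrix.mul_kronecker_mul, hV1s, hV2s, Matrix.one_kronecker_one]
  have hTs' : T * star T = 1 := by
    rw [hTstar, hT, ← Matrix.mul_kronecker_mul, hV1s', hV2s', Matrix.one_kronecker_one]
  set Y : Matrix (α × β) (α × β) ℂ := star W * T with hY
  have hYstar : star Y = star T * W := by
    rw [hY, star_mul, star_star]
  have hYs : star Y * Y = 1 := by
    rw [hYstar, hY]
    calc star T * W * (star W * T) = star T * (W * star W) * T := by simp only [Matrix.mul_assoc]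
      _ = 1 := by rw [hWs', Matrix.mul_one, hTs]
  have hYs' : Y * star Y = 1 := by
    rw [hYstar, hY]
    calc star W * T * (star T * W) = star W * (T * star T) * W := by simp only [Matrix.mul_assoc]
      _ = 1 := by rw [hTs', Matrix.mul_one, hWs]
  -- the doubly stochastic array
  set P : (α × β) → (α × β) → ℝ := fun i x => ‖Y i x‖ ^ 2 with hP
  have hP0 : ∀ i x, 0 ≤ P i x := fun i x => by positivity
  have hProw : ∀ i, ∑ x, P i x = 1 := by
    intro i
    have := congrFun (congrFun hYs' i) i
    simp only [Matrix.mul_apply, Matrix.star_apply, Matrix.one_apply_eq] at this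
    have h3 : ((∑ x, P i x : ℝ) : ℂ) = 1 := by
      rw [← this]
      push_cast
      apply Finset.sum_congr rfl; intro x _
      rw [hP]
      simp only [Complex.star_def, Complex.mul_conj, Complex.normSq_eq_norm_sq]
    exact_mod_cast h3
  have hPcol : ∀ x, ∑ i, P i x = 1 := by
    intro x
    have := congrFun (congrFun hYs x) x
    simp only [Matrix.mul_apply, Matrix.star_apply, Matrix.one_apply_eq] at this
    have h3 : ((∑ i, P i x : ℝ) : ℂ) = 1 := by
      rw [← this]
      push_cast
      apply Finset.sum_congr rfl; intro i _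
      rw [hP]
      simp only [Complex.star_def, mul_comm (starRingEnd ℂ (Y i x)), Complex.mul_conj,
        Complex.normSq_eq_norm_sq]
    exact_mod_cast h3
  -- the diagonal of the conjugated matrix
  have hspec : ρ = W * diagonal (RCLike.ofReal ∘ l) * star W := by
    have := hH.spectral_theorem
    simpa [Unitary.conjStarAlgAut_apply, hW, hl] using this
  have hdiag : ∀ x, (star T * ρ * T) x x = ((∑ i, l i * P i x : ℝ) : ℂ) := by
    intro x
    have h4 : star T * ρ * T = star Y * diagonal (RCLike.ofReal ∘ l) * Y := by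
      rw [hYstar, hY]
      conv_lhs => rw [hspec]
      simp only [Matrix.mul_assoc]
    rw [h4]
    simp only [Matrix.mul_apply, Matrix.diagonal_apply, Matrix.star_apply, mul_ite, mul_zero,
      Finset.sum_ite_eq', Finset.mem_univ, if_true]
    push_cast
    apply Finset.sum_congr rfl; intro i _
    rw [hP]
    have : star (Y i x) * Y i x = ((‖Y i x‖ ^ 2 : ℝ) : ℂ) := by
      rw [Complex.star_def, mul_comm, Complex.mul_conj, Complex.normSq_eq_norm_sq]
    simp only [Function.comp_apply]
    calc star (Y i x) * (RCLike.ofReal (l i) : ℂ) * Y i x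
        = (RCLike.ofReal (l i) : ℂ) * (star (Y i x) * Y i x) := by ring
      _ = _ := by rw [this]; push_cast; rfl
  have hdiag1 : star V1 * ρ1 * V1 = diagonal (RCLike.ofReal ∘ s) := by
    have := hH1.conjStarAlgAut_star_eigenvectorUnitary
    simpa [Unitary.conjStarAlgAut_star_apply, hV1, hs] using this
  have hdiag2 : star V2 * ρ2 * V2 = diagonal (RCLike.ofReal ∘ t) := by
    have := hH2.conjStarAlgAut_star_eigenvectorUnitary
    simpa [Unitary.conjStarAlgAut_star_apply, hV2, ht] using this
  have hmarg1 : ∀ a, ∑ b, ∑ i, l i * P i (a, b) = s a := by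
    intro a
    have := sum_diag_kron_left V1 V2 hV2s' ρ ρ1 hm1 a
    rw [hdiag1] at this
    simp only [← hT, hdiag, Matrix.diagonal_apply_eq, Function.comp_apply] at this
    have h3 : ((∑ b, ∑ i, l i * P i (a, b) : ℝ) : ℂ) = ((s a : ℝ) : ℂ) := by
      rw [Complex.ofReal_sum]
      exact this
    exact_mod_cast h3
  have hmarg2 : ∀ b, ∑ a, ∑ i, l i * P i (a, b) = t b := by
    intro b
    have := sum_diag_kron_right V1 V2 hV1s' ρ ρ2 hm2 b
    rw [hdiag2] at this
    simp only [← hT, hdiag, Matrix.diagonal_apply_eq, Function.comp_apply] at this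
    have h3 : ((∑ a, ∑ i, l i * P i (a, b) : ℝ) : ℂ) = ((t b : ℝ) : ℂ) := by
      rw [Complex.ofReal_sum]
      exact this
    exact_mod_cast h3
  -- support condition
  have hsupp : ∀ i a b, s a * t b = 0 → P i (a, b) * l i = 0 := by
    intro i a b hst
    have hle1 : P i (a, b) * l i ≤ s a := by
      rw [← hmarg1 a]
      calc P i (a, b) * l i = l i * P i (a, b) := mul_comm _ _
        _ ≤ ∑ i, l i * P i (a, b) := Finset.single_le_sum
              (f := fun j => l j * P j (a, b)) (fun j _ => mul_nonneg (hl0 j) (hP0 j _))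
              (Finset.mem_univ i)
        _ ≤ ∑ b', ∑ i, l i * P i (a, b') := Finset.single_le_sum
              (f := fun b' => ∑ i, l i * P i (a, b'))
              (fun b' _ => Finset.sum_nonneg fun j _ => mul_nonneg (hl0 j) (hP0 j _))
              (Finset.mem_univ b)
    have hle2 : P i (a, b) * l i ≤ t b := by
      rw [← hmarg2 b]
      calc P i (a, b) * l i = l i * P i (a, b) := mul_comm _ _
        _ ≤ ∑ i, l i * P i (a, b) := Finset.single_le_sum
              (f := fun j => l j * P j (a, b)) (fun j _ => mul_nonneg (hl0 j) (hP0 j _))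
              (Finset.mem_univ i)
        _ ≤ ∑ a', ∑ i, l i * P i (a', b) := Finset.single_le_sum
              (f := fun a' => ∑ i, l i * P i (a', b))
              (fun a' _ => Finset.sum_nonneg fun j _ => mul_nonneg (hl0 j) (hP0 j _))
              (Finset.mem_univ a)
    have hnn : 0 ≤ P i (a, b) * l i := mul_nonneg (hP0 _ _) (hl0 _)
    rcases mul_eq_zero.mp hst with h0 | h0
    · exact le_antisymm (h0 ▸ hle1) hnn
    · exact le_antisymm (h0 ▸ hle2) hnn
  -- the main summation
  have hterm : ∀ i a b, P i (a, b) * (l i - s a * t b) ≤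
      P i (a, b) * (l i * Real.log (l i) - l i * Real.log (s a) - l i * Real.log (t b)) :=
    fun i a b => term_ineq (hP0 _ _) (hl0 _) (hs0 _) (ht0 _) (hsupp i a b)
  have hsumL : ∑ i, ∑ x : α × β, P i x * (l i - s x.1 * t x.2) = 0 := by
    have e1 : ∑ i, ∑ x : α × β, P i x * (l i - s x.1 * t x.2) =
        ∑ i, l i * ∑ x, P i x - ∑ x : α × β, (s x.1 * t x.2) * ∑ i, P i x := by
      simp_rw [mul_sub, Finset.sum_sub_distrib, Finset.mul_sum]
      congr 1
      · apply Finset.sum_congr rfl; intro i _
        apply Finset.sum_congr rfl; intro x _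
        ring
      · rw [Finset.sum_comm]
        apply Finset.sum_congr rfl; intro i _
        apply Finset.sum_congr rfl; intro x _
        ring
    rw [e1]
    simp_rw [hProw, hPcol, mul_one]
    rw [hl1, Fintype.sum_prod_type]
    simp_rw [← Finset.mul_sum, ht1, mul_one, hs1]
    simp
  have hsumR : ∑ i, ∑ x : α × β,
      P i x * (l i * Real.log (l i) - l i * Real.log (s x.1) - l i * Real.log (t x.2)) =
      ∑ i, l i * Real.log (l i) - ∑ a, s a * Real.log (s a) - ∑ b, t b * Real.log (t b) := by
    have e1 : ∑ i, ∑ x : α × β,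
        P i x * (l i * Real.log (l i) - l i * Real.log (s x.1) - l i * Real.log (t x.2)) =
        ∑ i, (l i * Real.log (l i)) * ∑ x, P i x
          - ∑ x : α × β, Real.log (s x.1) * ∑ i, l i * P i x
          - ∑ x : α × β, Real.log (t x.2) * ∑ i, l i * P i x := by
      simp_rw [mul_sub, Finset.sum_sub_distrib, Finset.mul_sum]
      congr 1
      · congr 1
        · apply Finset.sum_congr rfl; intro i _
          apply Finset.sum_congr rfl; intro x _
          ring
        · rw [Finset.sum_comm]
          apply Finset.sum_congr rfl; intro i _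
          apply Finset.sum_congr rfl; intro x _
          ring
      · rw [Finset.sum_comm]
        apply Finset.sum_congr rfl; intro i _
        apply Finset.sum_congr rfl; intro x _
        ring
    rw [e1]
    simp_rw [hProw, mul_one]
    congr 1
    · congr 1
      rw [Fintype.sum_prod_type]
      apply Finset.sum_congr rfl; intro a _
      show ∑ y, Real.log (s a) * ∑ i, l i * P i (a, y) = _
      rw [← Finset.mul_sum, hmarg1 a]
      ring
    · rw [Fintype.sum_prod_type, Finset.sum_comm]
      apply Finset.sum_congr rfl; intro b _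
      show ∑ x, Real.log (t b) * ∑ i, l i * P i (x, b) = _
      rw [← Finset.mul_sum, hmarg2 b]
      ring
  have hmain : 0 ≤ ∑ i, l i * Real.log (l i) - ∑ a, s a * Real.log (s a)
      - ∑ b, t b * Real.log (t b) := by
    rw [← hsumR, ← hsumL]
    apply Finset.sum_le_sum; intro i _
    apply Finset.sum_le_sum; intro x _
    exact hterm i x.1 x.2
  simp only [Real.negMulLog, neg_mul, Finset.sum_neg_distrib]
  linarith

end Vale.Agent.Lib.P356
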