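import Vale.Agent.Lib.P356.Local
import Vale.Agent.Lib.P356.Lattice

/-!
The volume bound with a strictly smaller coefficient than `log q`.
-/

open Matrix
open scoped ComplexOrder

namespace Vale.Agent.Lib.P356

section purity

variable {ι : Type} [Fintype ι] [DecidableEq ι] {q : ℕ}

/-- Configurations on the complement finset are configurations off the set. -/
def complCfgEquiv (A : Finset ι) : (↥Aᶜ → Fin q) ≃ ({x // x ∉ A} → Fin q) where
  toFun f := fun x => f ⟨x.1, Finset.mem_compl.mpr x.2⟩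
  invFun g := fun x => g ⟨x.1, Finset.mem_compl.mp x.2⟩
  left_inv f := by funext x; rfl
  right_inv g := by funext x; rfl

/-- Configurations off the complement finset are configurations on the set. -/
def offComplEquiv (A : Finset ι) : ({x // x ∉ Aᶜ} → Fin q) ≃ (A → Fin q) where
  toFun f := fun x => f ⟨x.1, fun h => (Finset.mem_compl.mp h) x.2⟩
  invFun g := fun x => g ⟨x.1, by simpa using x.2⟩
  left_inv f := by funext x; rfl
  right_inv g := by funext x; rfl

lemma glue_compl (A : Finset ι) (b : ↥Aᶜ → Fin q) (a : {x // x ∉ Aᶜ} → Fin q) :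
    glue Aᶜ b a = glue A (offComplEquiv A a) (complCfgEquiv A b) := by
  funext x
  by_cases hx : x ∈ A
  · have : x ∉ Aᶜ := by simpa using hx
    simp [glue, hx, this, offComplEquiv]
  · have : x ∈ Aᶜ := by simpa using hx
    simp [glue, hx, this, complCfgEquiv]

/-- A pure state has the same entropy on a set and on its complement. -/
theorem entropy_reduced_compl (A : Finset ι) (Ω : (ι → Fin q) → ℂ) :
    entropy (reduced Aᶜ Ω) = entropy (reduced A Ω) := by
  have hU := reduced_posSemidef Aᶜ Ω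
  rw [← entropy_submatrix hU.isHermitian (complCfgEquiv A).symm, reduced_eq_mul A, entropy_swap]
  congr 1
  ext b b'
  simp only [Matrix.submatrix_apply, Matrix.mul_apply, Matrix.transpose_apply,
    Matrix.conjTranspose_apply, coeffMatrix, Matrix.of_apply, reduced]
  rw [← Equiv.sum_comp (offComplEquiv A).symm]
  apply Finset.sum_congr rfl; intro a _
  rw [glue_compl, glue_compl]
  simp

end purity

section lattice

variable {L q : ℕ}

/-- Entropy bound for a disjoint packing of balls. -/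
lemma entropy_le_of_packing {Ω : (Site L → Fin q) → ℂ} (hΩ : ∑ σ, ‖Ω σ‖ ^ 2 = 1) (r : ℕ) {c0 : ℝ}
    (hball : ∀ x : Site L, entropy (reduced (ball r x) Ω) ≤ (ball r x).card * Real.log q - c0) :
    ∀ (T : Finset (Site L)) (A : Finset (Site L)),
      (∀ t ∈ T, ball r t ⊆ A) →
      (∀ s ∈ T, ∀ t ∈ T, s ≠ t → Disjoint (ball r s) (ball r t)) →
      entropy (reduced A Ω) ≤ A.card * Real.log q - T.card * c0 := by
  classical
  intro T
  induction T using Finset.induction_on with
  | empty =>
    intro A _ _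
    simpa using entropy_reduced_le hΩ
  | insert t T' ht ih =>
    intro A hsub hdisj
    have htA : ball r t ⊆ A := hsub t (Finset.mem_insert_self _ _)
    set A' := A \ ball r t with hA'
    have hsub' : ∀ s ∈ T', ball r s ⊆ A' := by
      intro s hs y hy
      rw [hA', Finset.mem_sdiff]
      refine ⟨hsub s (Finset.mem_insert_of_mem hs) hy, ?_⟩
      have hst : s ≠ t := fun h => ht (h ▸ hs)
      exact fun hy' => (Finset.disjoint_left.mp
        (hdisj s (Finset.mem_insert_of_mem hs) t (Finset.mem_insert_self _ _) hst)) hy hy'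
    have hdisj' : ∀ s ∈ T', ∀ u ∈ T', s ≠ u → Disjoint (ball r s) (ball r u) :=
      fun s hs u hu => hdisj s (Finset.mem_insert_of_mem hs) u (Finset.mem_insert_of_mem hu)
    have hih := ih A' hsub' hdisj'
    have hd : Disjoint (ball r t) A' := Finset.disjoint_sdiff
    have hunion : ball r t ∪ A' = A := Finset.union_sdiff_of_subset htA
    have hsubadd := entropy_reduced_union_le (q := q) hd hΩ
    rw [hunion] at hsubadd
    have hcard : (A.card : ℝ) = (ball r t).card + A'.card := by
      rw [← hunion, Finset.card_union_of_disjoint hd]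
      push_cast
      ring
    have hT : ((insert t T').card : ℝ) = T'.card + 1 := by
      rw [Finset.card_insert_of_notMem ht]
      push_cast
      ring
    rw [hT, hcard]
    have := hball t
    nlinarith

end lattice

/-- The entropy of a ball around a site is strictly below the maximal value. -/
theorem entropy_ball_le {q : ℕ} (R : ℕ) (hq : 2 ≤ q) {J Δ : ℝ} (hJ : 0 < J) (hΔ : 0 < Δ) {L : ℕ}
    {h : Finset (Site L) → Matrix (Site L → Fin q) (Site L → Fin q) ℂ} {E₀ : ℝ}
    {Ω : (Site L → Fin q) → ℂ} (hadm : IsAdmissible R J h)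
    (hgs : IsGappedGroundState (hamiltonian R h) Δ E₀ Ω) (B1 : ℕ) (hB1 : B1 = (2 * R + 1) ^ 2)
    (x : Site L) :
    entropy (reduced (ball R x) Ω) ≤ (ball R x).card * Real.log q -
      Δ ^ 2 / (8 * J ^ 2 * 4 ^ B1 * (q : ℝ) ^ B1) := by
  classical
  have hΩ := hgs.unit
  have hq1 : (1 : ℝ) ≤ q := by exact_mod_cast (by omega : 1 ≤ q)
  have hlocal := local_gap_bound (admissibleSets L R) h (J := J) (Δ := Δ) (E₀ := E₀) (Ω := Ω)
    hq hΔ hadm.acts hadm.norm_le hgs x (ball R x) (self_mem_ball R x) (by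
      intro X hX hxX y hy
      rw [admissibleSets, Finset.mem_filter] at hX
      rw [mem_ball]
      exact hX.2.2 x hxX y hy)
  generalize hN : ball R x = N at hlocal ⊢
  have hNcard : N.card ≤ B1 := by
    rw [hB1, ← hN]; exact card_ball_le R x
  have hcount : ((admissibleSets L R).filter (fun X => x ∈ X)).card ≤ 2 ^ B1 := by
    have hsub : (admissibleSets L R).filter (fun X => x ∈ X) ⊆ N.powerset := by
      intro X hX
      rw [Finset.mem_filter, admissibleSets, Finset.mem_filter] at hX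
      rw [Finset.mem_powerset]
      intro y hy
      rw [← hN, mem_ball]
      exact hX.1.2.2 x hX.2 y hy
    calc _ ≤ N.powerset.card := Finset.card_le_card hsub
      _ = 2 ^ N.card := Finset.card_powerset N
      _ ≤ 2 ^ B1 := Nat.pow_le_pow_right (by norm_num) hNcard
  have hdim : (Fintype.card (N → Fin q) : ℝ) ≤ (q : ℝ) ^ B1 := by
    rw [card_cfg]
    push_cast
    exact pow_le_pow_right₀ hq1 hNcard
  have hdev := devSq_nonneg (reduced N Ω)
  have hcast : (((admissibleSets L R).filter (fun X => x ∈ X)).card : ℝ) ≤ 2 ^ B1 := by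
    exact_mod_cast hcount
  have h1 : Δ ^ 2 ≤ (4 : ℝ) ^ B1 * (4 * J ^ 2 * (q : ℝ) ^ B1 * devSq (reduced N Ω)) := by
    refine hlocal.trans ?_
    have hsq : (((admissibleSets L R).filter (fun X => x ∈ X)).card : ℝ) ^ 2 ≤ (4 : ℝ) ^ B1 := by
      have : ((2 : ℝ) ^ B1) ^ 2 = (4 : ℝ) ^ B1 := by
        rw [← pow_mul, mul_comm, pow_mul]; norm_num
      rw [← this]
      exact pow_le_pow_left₀ (by positivity) hcast 2
    apply mul_le_mul hsq _ (by positivity) (by positivity)
    apply mul_le_mul_of_nonneg_right _ hdev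
    apply mul_le_mul_of_nonneg_left hdim (by positivity)
  have h2 : Δ ^ 2 / (8 * J ^ 2 * 4 ^ B1 * (q : ℝ) ^ B1) ≤ devSq (reduced N Ω) / 2 := by
    rw [div_le_iff₀ (by positivity)]
    nlinarith
  have h3 : entropy (reduced N Ω) ≤ Real.log (Fintype.card (N → Fin q)) -
      devSq (reduced N Ω) / 2 :=
    entropy_le_log_card_sub (reduced_posSemidef N Ω) (reduced_trace_one hΩ)
  have h4 : Real.log (Fintype.card (N → Fin q) : ℝ) = N.card * Real.log q := by
    rw [card_cfg]
    push_cast
    rw [Real.log_pow]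
  rw [h4] at h3
  linarith

/-- Strict sub-maximal volume law for gapped ground states (explicit constants). -/
theorem volume_bound {q : ℕ} (R : ℕ) (hq : 2 ≤ q) {J Δ : ℝ} (hJ : 0 < J) (hΔ : 0 < Δ) {L : ℕ}
    {h : Finset (Site L) → Matrix (Site L → Fin q) (Site L → Fin q) ℂ} {E₀ : ℝ}
    {Ω : (Site L → Fin q) → ℂ} (hadm : IsAdmissible R J h)
    (hgs : IsGappedGroundState (hamiltonian R h) Δ E₀ Ω) (B1 B2 : ℕ)
    (hB1 : B1 = (2 * R + 1) ^ 2) (hB2 : B2 = (2 * (2 * R) + 1) ^ 2) (A : Finset (Site L)) :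
    entropy (reduced A Ω) ≤
      (Real.log q - Δ ^ 2 / (8 * J ^ 2 * 4 ^ B1 * (q : ℝ) ^ B1 * B2)) * A.card +
        (Δ ^ 2 / (8 * J ^ 2 * 4 ^ B1 * (q : ℝ) ^ B1 * B2)) * B1 * (edgeBoundary A).card := by
  classical
  have hΩ := hgs.unit
  have hq1 : (1 : ℝ) ≤ q := by exact_mod_cast (by omega : 1 ≤ q)
  have hq0 : (0 : ℝ) < q := by linarith
  have hB2pos : (0 : ℝ) < (B2 : ℝ) := by
    have : 0 < B2 := by rw [hB2]; positivity
    exact_mod_cast this
  set c0 : ℝ := Δ ^ 2 / (8 * J ^ 2 * 4 ^ B1 * (q : ℝ) ^ B1) with hc0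
  have hc0pos : 0 < c0 := by rw [hc0]; positivity
  have hball := entropy_ball_le R hq hJ hΔ hadm hgs B1 hB1
  obtain ⟨T, hTS, hTd, hTcard⟩ := exists_packing R (interior R A)
  have hTA : ∀ t ∈ T, ball R t ⊆ A := by
    intro t ht
    have := hTS ht
    rw [interior, Finset.mem_filter] at this
    exact this.2
  have hmain := entropy_le_of_packing hΩ R (c0 := c0) hball T A hTA hTd
  have hcards : (A.card : ℝ) ≤ T.card * B2 + (edgeBoundary A).card * B1 := by
    have h1 := card_sdiff_interior_le R A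
    have h2 : (A \ interior R A).card + (interior R A).card = A.card :=
      Finset.card_sdiff_add_card_eq_card (Finset.filter_subset _ _)
    rw [← hB2] at hTcard
    rw [← hB1] at h1
    have h3 : A.card ≤ T.card * B2 + (edgeBoundary A).card * B1 := by omega
    exact_mod_cast h3
  have hfinal : (A.card : ℝ) * c0 / B2 ≤ T.card * c0 + (edgeBoundary A).card * B1 * c0 / B2 := by
    have h1 : (A.card : ℝ) * c0 ≤ (T.card * B2 + (edgeBoundary A).card * B1) * c0 :=
      mul_le_mul_of_nonneg_right hcards hc0pos.le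
    rw [div_le_iff₀ hB2pos]
    calc (A.card : ℝ) * c0 ≤ _ := h1
      _ = _ := by field_simp
  have heq : Δ ^ 2 / (8 * J ^ 2 * 4 ^ B1 * (q : ℝ) ^ B1 * B2) = c0 / B2 := by
    rw [hc0, div_div]
  rw [heq]
  have e1 : (Real.log q - c0 / B2) * A.card + c0 / B2 * B1 * (edgeBoundary A).card =
      A.card * Real.log q - (A.card : ℝ) * c0 / B2 + (edgeBoundary A).card * B1 * c0 / B2 := by
    ring
  rw [e1]
  linarith

/-- The same with the minimum of the two sides of the cut, with abstract constants. -/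
theorem volume_bound_min (q R : ℕ) (hq : 2 ≤ q) (J Δ : ℝ) (hJ : 0 < J) (hΔ : 0 < Δ) :
    ∃ c : ℝ, 0 < c ∧ ∃ C : ℝ, ∀ (L : ℕ)
      (h : Finset (Site L) → Matrix (Site L → Fin q) (Site L → Fin q) ℂ) (E₀ : ℝ)
      (Ω : (Site L → Fin q) → ℂ),
      IsAdmissible R J h → IsGappedGroundState (hamiltonian R h) Δ E₀ Ω →
      ∀ A : Finset (Site L), entropy (reduced A Ω) ≤
        (Real.log q - c) * (min A.card Aᶜ.card : ℕ) + C * (edgeBoundary A).card := by
  classical
  set B1 : ℕ := (2 * R + 1) ^ 2 with hB1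
  set B2 : ℕ := (2 * (2 * R) + 1) ^ 2 with hB2
  have hq1 : (1 : ℝ) ≤ q := by exact_mod_cast (by omega : 1 ≤ q)
  have hq0 : (0 : ℝ) < q := by linarith
  have hB2pos : (0 : ℝ) < (B2 : ℝ) := by
    have : 0 < B2 := by rw [hB2]; positivity
    exact_mod_cast this
  refine ⟨Δ ^ 2 / (8 * J ^ 2 * 4 ^ B1 * (q : ℝ) ^ B1 * B2), by positivity,
    (Δ ^ 2 / (8 * J ^ 2 * 4 ^ B1 * (q : ℝ) ^ B1 * B2)) * B1, ?_⟩
  intro L h E₀ Ω hadm hgs A
  rcases le_total A.card Aᶜ.card with hle | hle
  · rw [min_eq_left hle]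
    exact volume_bound R hq hJ hΔ hadm hgs B1 B2 hB1 hB2 A
  · rw [min_eq_right hle]
    have := volume_bound R hq hJ hΔ hadm hgs B1 B2 hB1 hB2 Aᶜ
    rw [entropy_reduced_compl, card_edgeBoundary_compl] at this
    exact this

end Vale.Agent.Lib.P356
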